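import Vale.Agent.P207.H662.Sant

/-!
# P207, line N3, package P8: the hyperbolic cross ratio and the bound of the visual measure

All data are written in a plane chart `ℂ` of the boundary minus one point `ξ₀`.
* `D ξ z`: signed distance of the horospheres at `ξ`, `z` through one point `p`; `D0 z` the same
  for `ξ₀`, `z`;
* `A ξ / |z - ξ|⁴`: density of the Margulis area of the horosphere at `ξ` through `p`; `A0` the
  density for `ξ₀`.
-/

open MeasureTheory Set Filter Topology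
open scoped ENNReal NNReal RealInnerProductSpace

noncomputable section

namespace Vale.Agent.P207.N3.H662

open Vale.Agent.P207.H662.Sant (E2 sant_self)

/-- the inequality of Santaló type on the complex plane -/
theorem sant_complex {φ : ℂ → ℝ} (hφ : ∀ x, 0 ≤ φ x) (hmφ : Measurable φ)
    (h : ∀ x y, φ x * φ y * ‖x - y‖ ^ 2 ≤ 1) :
    ∫⁻ x, ENNReal.ofReal (φ x ^ 2) ≤ ENNReal.ofReal Real.pi := by
  set e := Complex.orthonormalBasisOneI.repr with he
  have hmp : MeasurePreserving e volume volume :=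
    Complex.orthonormalBasisOneI.measurePreserving_repr
  have hmps : MeasurePreserving e.symm volume volume :=
    hmp.symm e.toHomeomorph.toMeasurableEquiv
  have hm : Measurable fun x : E2 => φ (e.symm x) := hmφ.comp e.symm.continuous.measurable
  have key := sant_self (φ := fun x => φ (e.symm x)) (fun x => hφ _) hm (by
    intro x y
    have h1 := h (e.symm x) (e.symm y)
    rwa [← map_sub, LinearIsometryEquiv.norm_map] at h1)
  have h2 := hmps.lintegral_comp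
    (f := fun z => ENNReal.ofReal (φ z ^ 2)) (ENNReal.measurable_ofReal.comp (hmφ.pow_const 2))
  rw [← h2]
  exact key

section Cross

variable {h : ℝ} {D : ℂ → ℂ → ℝ} {D0 A : ℂ → ℝ} {A0 : ℝ}

/-- the relation of the areas in logarithmic form -/
theorem hD_eq (hA0 : 0 < A0) (hA : ∀ ξ, 0 < A ξ)
    (hb : ∀ ξ z, ξ ≠ z → A ξ / ‖z - ξ‖ ^ 4 = Real.exp (h * (D0 z - D ξ z)) * A0)
    {ξ z : ℂ} (hne : ξ ≠ z) :
    h * D ξ z = h * D0 z + Real.log A0 - Real.log (A ξ) + 4 * Real.log ‖z - ξ‖ := by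
  have hn : 0 < ‖z - ξ‖ := norm_pos_iff.2 (sub_ne_zero.2 hne.symm)
  have h1 := congrArg Real.log (hb ξ z hne)
  rw [Real.log_mul (Real.exp_pos _).ne' hA0.ne', Real.log_exp,
    Real.log_div (hA ξ).ne' (by positivity), Real.log_pow] at h1
  push_cast at h1
  linarith

/-- the constant of the cross ratio -/
theorem kap (hA0 : 0 < A0) (hA : ∀ ξ, 0 < A ξ) (hsym : ∀ ξ z, ξ ≠ z → D ξ z = D z ξ)
    (hb : ∀ ξ z, ξ ≠ z → A ξ / ‖z - ξ‖ ^ 4 = Real.exp (h * (D0 z - D ξ z)) * A0) (ξ z : ℂ) :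
    h * D0 z + Real.log (A z) = h * D0 ξ + Real.log (A ξ) := by
  rcases eq_or_ne ξ z with rfl | hne
  · rfl
  have h1 := hD_eq hA0 hA hb hne
  have h2 := hD_eq hA0 hA hb hne.symm
  rw [hsym ξ z hne, h2, norm_sub_rev] at h1
  linarith

/-- **the bound of the visual measure** -/
theorem cross_bound (hA0 : 0 < A0) (hA : ∀ ξ, 0 < A ξ) (hmeas : Measurable D0)
    (hsym : ∀ ξ z, ξ ≠ z → D ξ z = D z ξ) (h0 : 0 < h) (hneg : ∀ ξ z, ξ ≠ z → D ξ z ≤ 0)
    (hb : ∀ ξ z, ξ ≠ z → A ξ / ‖z - ξ‖ ^ 4 = Real.exp (h * (D0 z - D ξ z)) * A0)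
    {c : ℝ} (hc : 0 < c) {ξ₁ η₁ : ℂ} (hne : ξ₁ ≠ η₁) (hD : D ξ₁ η₁ = 0)
    (hcal : A ξ₁ * A η₁ / ‖η₁ - ξ₁‖ ^ 4 = c ^ 2) :
    ∫⁻ z : ℂ, ENNReal.ofReal (Real.exp (h * D0 z) * A0) ≤ ENNReal.ofReal (c * Real.pi) := by
  have hn1 : 0 < ‖η₁ - ξ₁‖ := norm_pos_iff.2 (sub_ne_zero.2 hne.symm)
  -- the constant `K₀`
  set K₀ : ℝ := h * D0 0 + Real.log (A 0) + Real.log A0 with hK
  have hkap : ∀ z, h * D0 z = K₀ - Real.log (A z) - Real.log A0 := by
    intro z
    have := kap hA0 hA hsym hb 0 z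
    rw [hK]
    linarith
  have hDD : ∀ ξ z, ξ ≠ z → h * D ξ z = K₀ - Real.log (A z) - Real.log (A ξ) +
      4 * Real.log ‖z - ξ‖ := by
    intro ξ z hz
    rw [hD_eq hA0 hA hb hz, hkap]
    ring
  have hK2 : K₀ = 2 * Real.log c := by
    have h1 := hDD _ _ hne
    rw [hD, mul_zero] at h1
    have h2 := congrArg Real.log hcal
    rw [Real.log_div (mul_pos (hA _) (hA _)).ne' (by positivity),
      Real.log_mul (hA _).ne' (hA _).ne', Real.log_pow, Real.log_pow] at h2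
    push_cast at h2
    linarith
  -- the function `1 / d`
  set φ : ℂ → ℝ := fun z => Real.exp ((h * D0 z + Real.log A0 - Real.log c) / 2) with hφ
  have hφ2 : ∀ z, φ z ^ 2 * c = Real.exp (h * D0 z) * A0 := by
    intro z
    rw [hφ]
    simp only
    rw [← Real.exp_nat_mul]
    have e1 : ((2 : ℕ) : ℝ) * ((h * D0 z + Real.log A0 - Real.log c) / 2) =
        h * D0 z + Real.log A0 - Real.log c := by push_cast; ring
    rw [e1, Real.exp_sub, Real.exp_add, Real.exp_log hA0, Real.exp_log hc]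
    field_simp
  have hmφ : Measurable φ :=
    Real.measurable_exp.comp ((((hmeas.const_mul h).add_const _).sub_const _).div_const 2)
  have hφlog : ∀ z, Real.log (φ z) = (Real.log c - Real.log (A z)) / 2 := by
    intro z
    rw [hφ]
    simp only
    rw [Real.log_exp, hkap, hK2]
    ring
  have key := sant_complex (φ := φ) (fun z => (Real.exp_pos _).le) hmφ (by
    intro x y
    rcases eq_or_ne x y with rfl | hxy
    · simp
    have hn : 0 < ‖x - y‖ := norm_pos_iff.2 (sub_ne_zero.2 hxy)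
    have h1 : h * D x y ≤ 0 := mul_nonpos_of_nonneg_of_nonpos h0.le (hneg x y hxy)
    rw [hDD x y hxy, hK2, norm_sub_rev] at h1
    have hpos : 0 < φ x * φ y * ‖x - y‖ ^ 2 := by
      have := Real.exp_pos ((h * D0 x + Real.log A0 - Real.log c) / 2)
      have := Real.exp_pos ((h * D0 y + Real.log A0 - Real.log c) / 2)
      positivity
    rw [← Real.log_nonpos_iff hpos.le, Real.log_mul (by positivity) (by positivity),
      Real.log_mul (Real.exp_pos _).ne' (Real.exp_pos _).ne', hφlog, hφlog, Real.log_pow]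
    push_cast
    linarith)
  have h3 : ∫⁻ z : ℂ, ENNReal.ofReal (Real.exp (h * D0 z) * A0) =
      ENNReal.ofReal c * ∫⁻ z : ℂ, ENNReal.ofReal (φ z ^ 2) := by
    have m2 : Measurable fun z => ENNReal.ofReal (φ z ^ 2) :=
      ENNReal.measurable_ofReal.comp (hmφ.pow_const 2)
    rw [← lintegral_const_mul _ m2]
    refine lintegral_congr fun z => ?_
    rw [← hφ2, ← ENNReal.ofReal_mul hc.le, mul_comm]
  rw [h3, ENNReal.ofReal_mul hc.le]
  exact mul_le_mul_right key _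

end Cross

/-! ## the calibration -/

section Cal

/-- the determinant of a real linear map from the plane to `ℂ` -/
def dt (L : E2 →L[ℝ] ℂ) : ℝ :=
  (L (EuclideanSpace.single 0 1)).re * (L (EuclideanSpace.single 1 1)).im -
    (L (EuclideanSpace.single 0 1)).im * (L (EuclideanSpace.single 1 1)).re

/-- the second difference of `log |ξ - η|` -/
theorem log_diff {a b : ℝ → ℂ} {ξ η δ ε : ℂ} (hne : ξ ≠ η) (ha : HasDerivAt a δ 0)
    (hb : HasDerivAt b ε 0) (ha0 : a 0 = ξ) (hb0 : b 0 = η) :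
    Tendsto (fun s : ℝ => (Real.log ‖a s - b s‖ + Real.log ‖ξ - η‖ - Real.log ‖ξ - b s‖ -
      Real.log ‖a s - η‖) / s ^ 2) (𝓝[>] 0) (𝓝 ((δ * ε / (ξ - η) ^ 2).re)) := by
  set u := ξ - η with hu
  have hu0 : u ≠ 0 := sub_ne_zero.2 hne
  -- difference quotients
  have hs : Tendsto (fun s : ℝ => s) (𝓝[>] 0) (𝓝 0) := tendsto_id.mono_left nhdsWithin_le_nhds
  have qa : Tendsto (fun s : ℝ => (a s - ξ) / s) (𝓝[>] 0) (𝓝 δ) := by
    have h1 := ha.tendsto_slope_zero_right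
    rw [ha0] at h1
    refine h1.congr' ?_
    filter_upwards with s
    rw [zero_add, Complex.real_smul, Complex.ofReal_inv, div_eq_inv_mul]
  have qb : Tendsto (fun s : ℝ => (b s - η) / s) (𝓝[>] 0) (𝓝 ε) := by
    have h1 := hb.tendsto_slope_zero_right
    rw [hb0] at h1
    refine h1.congr' ?_
    filter_upwards with s
    rw [zero_add, Complex.real_smul, Complex.ofReal_inv, div_eq_inv_mul]
  have ta : Tendsto a (𝓝[>] 0) (𝓝 ξ) := by
    have := ha.continuousAt.tendsto.mono_left (nhdsWithin_le_nhds (s := Ioi 0))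
    rwa [ha0] at this
  have tb : Tendsto b (𝓝[>] 0) (𝓝 η) := by
    have := hb.continuousAt.tendsto.mono_left (nhdsWithin_le_nhds (s := Ioi 0))
    rwa [hb0] at this
  -- the cross ratio minus one
  set w : ℝ → ℂ := fun s => (a s - ξ) * (b s - η) / ((a s - η) * (ξ - b s)) with hw
  have tw : Tendsto (fun s : ℝ => w s / (s : ℂ) ^ 2) (𝓝[>] 0) (𝓝 (δ * ε / u ^ 2)) := by
    have h1 : Tendsto (fun s : ℝ => ((a s - ξ) / s) * ((b s - η) / s) / ((a s - η) * (ξ - b s)))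
        (𝓝[>] 0) (𝓝 (δ * ε / (u * u))) :=
      (qa.mul qb).div (((ta.sub_const η)).mul (tendsto_const_nhds.sub tb)) (mul_ne_zero hu0 hu0)
    rw [← sq] at h1
    refine h1.congr' ?_
    filter_upwards [self_mem_nhdsWithin] with s hs0
    rw [hw]
    have : (s : ℂ) ≠ 0 := by exact_mod_cast (ne_of_gt hs0)
    field_simp
  have tw0 : Tendsto w (𝓝[>] 0) (𝓝 0) := by
    have h1 : Tendsto (fun s : ℝ => (s : ℂ) ^ 2) (𝓝[>] 0) (𝓝 0) := by
      have h2 : Tendsto (fun s : ℝ => (s : ℂ) ^ 2) (𝓝 0) (𝓝 (((0 : ℝ) : ℂ) ^ 2)) :=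
        (Complex.continuous_ofReal.pow 2).tendsto 0
      simp only [Complex.ofReal_zero, ne_eq, OfNat.ofNat_ne_zero, not_false_eq_true,
        zero_pow] at h2
      exact h2.mono_left nhdsWithin_le_nhds
    have h3 := tw.mul h1
    rw [mul_zero] at h3
    refine h3.congr' ?_
    filter_upwards [self_mem_nhdsWithin] with s hs0
    have : (s : ℂ) ≠ 0 := by exact_mod_cast (ne_of_gt hs0)
    field_simp
  -- the logarithm
  have hlog : ∀ᶠ s in 𝓝[>] (0 : ℝ), Real.log ‖a s - b s‖ + Real.log ‖u‖ -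
      Real.log ‖ξ - b s‖ - Real.log ‖a s - η‖ = Real.log ‖1 + w s‖ := by
    have e1 : ∀ᶠ s in 𝓝[>] (0 : ℝ), a s - η ≠ 0 := (ta.sub_const η).eventually_ne hu0
    have e2 : ∀ᶠ s in 𝓝[>] (0 : ℝ), ξ - b s ≠ 0 := (tendsto_const_nhds.sub tb).eventually_ne hu0
    have e3 : ∀ᶠ s in 𝓝[>] (0 : ℝ), a s - b s ≠ 0 := (ta.sub tb).eventually_ne hu0
    filter_upwards [e1, e2, e3] with s h1 h2 h3
    have e4 : 1 + w s = (a s - b s) * u / ((a s - η) * (ξ - b s)) := by
      rw [hw, eq_div_iff (mul_ne_zero h1 h2)]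
      simp only
      rw [add_mul, div_mul_cancel₀ _ (mul_ne_zero h1 h2), hu]
      ring
    rw [e4, norm_div, norm_mul, norm_mul, Real.log_div (by positivity) (by positivity),
      Real.log_mul (norm_ne_zero_iff.2 h3) (norm_ne_zero_iff.2 hu0),
      Real.log_mul (norm_ne_zero_iff.2 h1) (norm_ne_zero_iff.2 h2)]
    ring
  -- derivative of `log |1 + w|`
  have hd : HasFDerivAt (fun z : ℂ => Real.log ‖1 + z‖) (Complex.reCLM : ℂ →L[ℝ] ℝ) 0 := by
    have h1 : HasStrictDerivAt Complex.log 1⁻¹ (1 : ℂ) := by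
      have := Complex.hasStrictDerivAt_log (x := 1) (by simp)
      simpa using this
    have h2 : HasDerivAt (fun z : ℂ => Complex.log (1 + z)) 1 0 := by
      have h3 : HasDerivAt Complex.log 1 (1 + 0) := by
        have := h1.hasDerivAt
        simpa using this
      simpa using h3.comp_const_add 1 0
    have h3 : HasFDerivAt (𝕜 := ℝ) (fun z : ℂ => (Complex.log (1 + z)).re)
        (Complex.reCLM.comp ((ContinuousLinearMap.toSpanSingleton ℂ (1 : ℂ)).restrictScalars ℝ)) 0 :=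
      Complex.reCLM.hasFDerivAt.comp 0 (h2.hasFDerivAt.restrictScalars ℝ)
    have h4 : (Complex.reCLM.comp
        ((ContinuousLinearMap.toSpanSingleton ℂ (1 : ℂ)).restrictScalars ℝ)) = Complex.reCLM := by
      ext z
      simp
    rw [h4] at h3
    refine h3.congr_of_eventuallyEq ?_
    filter_upwards with z
    rw [Complex.log_re]
  have hO := hd.isLittleO
  simp only [add_zero, norm_one, Real.log_one, sub_zero] at hO
  have h5 : Tendsto (fun s : ℝ => (Real.log ‖1 + w s‖ - (w s).re) / s ^ 2) (𝓝[>] 0) (𝓝 0) := by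
    have h6 : (fun s : ℝ => Real.log ‖1 + w s‖ - (w s).re) =o[𝓝[>] 0] w := by
      have := hO.comp_tendsto tw0
      exact this
    have h7 : w =O[𝓝[>] 0] fun s : ℝ => (s : ℂ) ^ 2 := by
      refine Asymptotics.isBigO_of_div_tendsto_nhds ?_ _ tw
      filter_upwards [self_mem_nhdsWithin] with s hs0 h0
      have : (s : ℂ) ≠ 0 := by exact_mod_cast (ne_of_gt hs0)
      exact absurd h0 (pow_ne_zero 2 this)
    have h8 : (fun s : ℝ => Real.log ‖1 + w s‖ - (w s).re) =o[𝓝[>] 0] fun s : ℝ => s ^ 2 := by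
      have h9 : (fun s : ℝ => (s : ℂ) ^ 2) =O[𝓝[>] 0] fun s : ℝ => s ^ 2 := by
        refine Asymptotics.IsBigO.of_bound 1 ?_
        filter_upwards with s
        simp
      exact (h6.trans_isBigO h7).trans_isBigO h9
    exact h8.tendsto_div_nhds_zero
  have h10 : Tendsto (fun s : ℝ => (w s).re / s ^ 2) (𝓝[>] 0) (𝓝 ((δ * ε / u ^ 2).re)) := by
    have := (Complex.continuous_re.tendsto _).comp tw
    refine this.congr' ?_
    filter_upwards with s
    simp only [Function.comp_apply]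
    rw [← Complex.ofReal_pow, Complex.div_ofReal_re]
  have h11 := h5.add h10
  rw [zero_add] at h11
  refine h11.congr' ?_
  filter_upwards [hlog] with s hs1
  rw [hs1]
  ring

/-- the determinant of a bilinear form on the plane -/
def dtB (T : E2 → E2 → ℝ) : ℝ :=
  T (EuclideanSpace.single 0 1) (EuclideanSpace.single 0 1) *
      T (EuclideanSpace.single 1 1) (EuclideanSpace.single 1 1) -
    T (EuclideanSpace.single 0 1) (EuclideanSpace.single 1 1) *
      T (EuclideanSpace.single 1 1) (EuclideanSpace.single 0 1)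

variable {h : ℝ} {D : ℂ → ℂ → ℝ} {D0 A : ℂ → ℝ} {A0 : ℝ}

/-- **the calibration**: the constant of the cross ratio from the mixed second difference of the
distance at one geodesic -/
theorem calib (h0 : 0 < h) (hA0 : 0 < A0) (hA : ∀ ξ, 0 < A ξ)
    (hb : ∀ ξ z, ξ ≠ z → A ξ / ‖z - ξ‖ ^ 4 = Real.exp (h * (D0 z - D ξ z)) * A0)
    {ξ₁ η₁ : ℂ} (hne : ξ₁ ≠ η₁) {a b : E2 → ℂ} {La Lb : E2 →L[ℝ] ℂ}
    (ha : HasFDerivAt a La 0) (hb' : HasFDerivAt b Lb 0) (ha0 : a 0 = ξ₁) (hb0 : b 0 = η₁)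
    {T : E2 → E2 → ℝ} (hT : 0 < dtB T)
    (hlim : ∀ X Y : E2, Tendsto (fun s : ℝ => (D (a (s • Y)) (b (s • X)) + D ξ₁ η₁ -
      D ξ₁ (b (s • X)) - D (a (s • Y)) η₁) / s ^ 2) (𝓝[>] 0) (𝓝 (-T X Y)))
    {e₁ e₂ : ℝ} (he : e₁ * e₂ = dtB T) (h1 : A ξ₁ / ‖η₁ - ξ₁‖ ^ 4 * |dt Lb| = e₁)
    (h2 : A η₁ / ‖η₁ - ξ₁‖ ^ 4 * |dt La| = e₂) :
    A ξ₁ * A η₁ / ‖η₁ - ξ₁‖ ^ 4 = (4 / h) ^ 2 := by
  set u := ξ₁ - η₁ with hu
  have hu0 : u ≠ 0 := sub_ne_zero.2 hne
  have hnu : 0 < ‖u‖ := norm_pos_iff.2 hu0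
  have hnn : ‖η₁ - ξ₁‖ = ‖u‖ := by rw [hu, norm_sub_rev]
  rw [hnn] at h1 h2 ⊢
  -- the mixed second difference
  have key : ∀ X Y : E2, h * T X Y = -4 * (La Y * Lb X / u ^ 2).re := by
    intro X Y
    have sa : HasDerivAt (fun s : ℝ => a (s • Y)) (La Y) 0 := by
      have e : HasFDerivAt a La ((0 : ℝ) • Y) := by rwa [zero_smul]
      have := e.comp_hasDerivAt (0 : ℝ) ((hasDerivAt_id (0 : ℝ)).smul_const Y)
      rw [one_smul] at this
      exact this
    have sb : HasDerivAt (fun s : ℝ => b (s • X)) (Lb X) 0 := by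
      have e : HasFDerivAt b Lb ((0 : ℝ) • X) := by rwa [zero_smul]
      have := e.comp_hasDerivAt (0 : ℝ) ((hasDerivAt_id (0 : ℝ)).smul_const X)
      rw [one_smul] at this
      exact this
    have l1 := log_diff hne sa sb (by simp [ha0]) (by simp [hb0])
    have l2 := (hlim X Y).const_mul h
    have ta : Tendsto (fun s : ℝ => a (s • Y)) (𝓝[>] 0) (𝓝 ξ₁) := by
      have := sa.continuousAt.tendsto.mono_left (nhdsWithin_le_nhds (s := Ioi 0))
      simpa [ha0] using this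
    have tb : Tendsto (fun s : ℝ => b (s • X)) (𝓝[>] 0) (𝓝 η₁) := by
      have := sb.continuousAt.tendsto.mono_left (nhdsWithin_le_nhds (s := Ioi 0))
      simpa [hb0] using this
    have e1 : ∀ᶠ s in 𝓝[>] (0 : ℝ), a (s • Y) ≠ η₁ := ta.eventually_ne hne
    have e2 : ∀ᶠ s in 𝓝[>] (0 : ℝ), ξ₁ ≠ b (s • X) := by
      filter_upwards [tb.eventually_ne hne.symm] with s hs
      exact hs.symm
    have e3 : ∀ᶠ s in 𝓝[>] (0 : ℝ), a (s • Y) ≠ b (s • X) := by
      have := (ta.sub tb).eventually_ne hu0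
      filter_upwards [this] with s hs
      exact fun h => hs (sub_eq_zero.2 h)
    have l3 := l1.const_mul 4
    have l4 : Tendsto (fun s : ℝ => 4 * ((Real.log ‖a (s • Y) - b (s • X)‖ + Real.log ‖ξ₁ - η₁‖ -
        Real.log ‖ξ₁ - b (s • X)‖ - Real.log ‖a (s • Y) - η₁‖) / s ^ 2)) (𝓝[>] 0)
        (𝓝 (h * -T X Y)) := by
      refine l2.congr' ?_
      filter_upwards [e1, e2, e3] with s h1 h2 h3
      have q1 := hD_eq hA0 hA hb h3
      have q2 := hD_eq hA0 hA hb hne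
      have q3 := hD_eq hA0 hA hb h2
      have q4 := hD_eq hA0 hA hb h1
      rw [norm_sub_rev] at q1 q2 q3 q4
      rw [← mul_div_assoc, ← mul_div_assoc]
      congr 1
      linarith
    have l5 := tendsto_nhds_unique l3 l4
    rw [← hu] at l5
    linarith
  -- determinants
  set x0 : E2 := EuclideanSpace.single 0 1
  set x1 : E2 := EuclideanSpace.single 1 1
  have hk := fun X Y => key X Y
  set k : ℂ := (u ^ 2)⁻¹ with hkk
  have hkn : k.re ^ 2 + k.im ^ 2 = (‖u‖ ^ 4)⁻¹ := by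
    have : k.re ^ 2 + k.im ^ 2 = ‖k‖ ^ 2 := by
      rw [Complex.sq_norm, Complex.normSq_apply]; ring
    rw [this, hkk, norm_inv, norm_pow]
    rw [inv_pow]
    congr 1
    ring
  have hdet : h ^ 2 * dtB T = -16 * (‖u‖ ^ 4)⁻¹ * (dt La * dt Lb) := by
    have t00 := hk x0 x0
    have t01 := hk x0 x1
    have t10 := hk x1 x0
    have t11 := hk x1 x1
    rw [div_eq_mul_inv, ← hkk] at t00 t01 t10 t11
    have e1 : h ^ 2 * dtB T = (h * T x0 x0) * (h * T x1 x1) - (h * T x0 x1) * (h * T x1 x0) := by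
      unfold dtB
      ring
    rw [e1, t00, t01, t10, t11, ← hkn]
    unfold dt
    simp only [Complex.mul_re, Complex.mul_im]
    ring
  have hdtA : e₁ * e₂ = A ξ₁ * A η₁ * ((‖u‖ ^ 4)⁻¹) ^ 2 * (|dt La| * |dt Lb|) := by
    rw [← h1, ← h2]
    field_simp
  have habs : |dt La| * |dt Lb| = -(dt La * dt Lb) := by
    rw [← abs_mul, abs_of_neg]
    by_contra hcon
    push Not at hcon
    have : h ^ 2 * dtB T ≤ 0 := by
      rw [hdet]
      have : 0 ≤ 16 * (‖u‖ ^ 4)⁻¹ * (dt La * dt Lb) := by positivity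
      linarith
    have : 0 < h ^ 2 * dtB T := by positivity
    linarith
  set q := |dt La| * |dt Lb| with hq
  have hq0 : 0 < q := by
    have h3 : h ^ 2 * dtB T = 16 * (‖u‖ ^ 4)⁻¹ * q := by rw [hdet, habs]; ring
    have h4 : 0 < h ^ 2 * dtB T := by positivity
    rw [h3] at h4
    by_contra hcon
    push Not at hcon
    have : 16 * (‖u‖ ^ 4)⁻¹ * q ≤ 0 := mul_nonpos_of_nonneg_of_nonpos (by positivity) hcon
    linarith
  have hfin : h ^ 2 * (A ξ₁ * A η₁ * ((‖u‖ ^ 4)⁻¹) ^ 2 * q) = 16 * (‖u‖ ^ 4)⁻¹ * q := by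
    rw [← hdtA, he, hdet, habs]; ring
  have hfin2 : h ^ 2 * (A ξ₁ * A η₁ * (‖u‖ ^ 4)⁻¹) = 16 := by
    have hp : 0 < (‖u‖ ^ 4)⁻¹ * q := by positivity
    have : (h ^ 2 * (A ξ₁ * A η₁ * (‖u‖ ^ 4)⁻¹)) * ((‖u‖ ^ 4)⁻¹ * q) =
        16 * ((‖u‖ ^ 4)⁻¹ * q) := by
      rw [← mul_assoc 16, ← hfin]; ring
    exact mul_right_cancel₀ hp.ne' this
  rw [div_pow, eq_div_iff (by positivity), div_eq_mul_inv]
  linarith

/-- **the bound of the visual measure**, with the constant from the calibration -/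
theorem visual_bound (h0 : 0 < h) (hA0 : 0 < A0) (hA : ∀ ξ, 0 < A ξ) (hmeas : Measurable D0)
    (hsym : ∀ ξ z, ξ ≠ z → D ξ z = D z ξ) (hneg : ∀ ξ z, ξ ≠ z → D ξ z ≤ 0)
    (hb : ∀ ξ z, ξ ≠ z → A ξ / ‖z - ξ‖ ^ 4 = Real.exp (h * (D0 z - D ξ z)) * A0)
    {ξ₁ η₁ : ℂ} (hne : ξ₁ ≠ η₁) (hD : D ξ₁ η₁ = 0) {a b : E2 → ℂ} {La Lb : E2 →L[ℝ] ℂ}
    (ha : HasFDerivAt a La 0) (hb' : HasFDerivAt b Lb 0) (ha0 : a 0 = ξ₁) (hb0 : b 0 = η₁)
    {T : E2 → E2 → ℝ} (hT : 0 < dtB T)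
    (hlim : ∀ X Y : E2, Tendsto (fun s : ℝ => (D (a (s • Y)) (b (s • X)) + D ξ₁ η₁ -
      D ξ₁ (b (s • X)) - D (a (s • Y)) η₁) / s ^ 2) (𝓝[>] 0) (𝓝 (-T X Y)))
    {e₁ e₂ : ℝ} (he : e₁ * e₂ = dtB T) (h1 : A ξ₁ / ‖η₁ - ξ₁‖ ^ 4 * |dt Lb| = e₁)
    (h2 : A η₁ / ‖η₁ - ξ₁‖ ^ 4 * |dt La| = e₂) :
    ∫⁻ z : ℂ, ENNReal.ofReal (Real.exp (h * D0 z) * A0) ≤ ENNReal.ofReal (4 / h * Real.pi) :=
  cross_bound hA0 hA hmeas hsym h0 hneg hb (by positivity) hne hD
    (calib h0 hA0 hA hb hne ha hb' ha0 hb0 hT hlim he h1 h2)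

end Cal

end Vale.Agent.P207.N3.H662
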