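import Vale.Agent.P207.N3.Spec
import Vale.Agent.P207.N3.H662.Cross

/-!
# P207, line N3, package P8: literal interfaces (Part A, case (i))
-/

open Set Filter Topology Metric MeasureTheory
open scoped ContDiff

noncomputable section

namespace Vale.Agent.P207.N3.H662

variable {Γ X B : Type} [Group Γ] [MetricSpace X] [ProperSpace X] [MulAction Γ X]
  [IsIsometricSMul Γ X] [TopologicalSpace B] [CompactSpace B] [T2Space B] [MulAction Γ B]
  [ContinuousConstSMul Γ B] [MeasurableSpace B] [BorelSpace B] (L : Leaf Γ X B) (A : Area L)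

/-- Case (i) of Part A: the coordinate `f` (normal coordinate of `β` after a linear change, such
that the invariant form is the standard one) of the leaf of `ξ = β^-`, `η₀ = β^+`. -/
structure CaseI where
  ξ : B
  η₀ : B
  f : B → E2
  f_smooth : L.SmoothOn ξ f
  f_bij : BijOn f {ξ}ᶜ univ
  c₀ : ℝ
  c₀_pos : 0 < c₀
  /-- `dx₁ dx₂ = const · σ` -/
  f_det : ∀ y, L.em y = ξ → ∀ u ∈ ball (0 : E2) 3,
    |(fderiv ℝ (fun u => f (L.e y u)) u).det| = c₀ * Real.exp (-A.h * L.lv y) * A.s y u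
  /-- derivative of the forward chart at `η₀` -/
  G : X → E2 →L[ℝ] E2
  G_cont : ContinuousOn G {y | L.ep y = η₀}
  G_det : ∀ y, L.ep y = η₀ → (G y).det ≠ 0
  /-- `dx = B_κ⁻¹ dx^κ` with `B_κ` conformal, for all `κ = k η₀` of the leaf of `ξ` -/
  conf : ∀ (y : X) (k : Γ), L.ep y = η₀ → L.em (k • y) = ξ → ∃ (c : ℝ) (O : E2 ≃ₗᵢ[ℝ] E2),
    0 < c ∧ ∀ v, fderiv ℝ (fun u => f (L.e (k • y) u)) 0 v = c • O (G y v)
  β : Γ
  x₀ : X
  l : ℝ
  a : O2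
  axis : L.IsAxis β x₀ l a
  em_x₀ : L.em x₀ = ξ
  ep_x₀ : L.ep x₀ = η₀
  Λ : E2 ≃ₗᵢ[ℝ] E2
  /-- `f ∘ β⁻¹ = e^{hl/2} Λ⁻¹ f` -/
  equivar : ∀ η, η ≠ ξ → f (β • η) = Real.exp (-(A.h * l / 2)) • Λ (f η)

/-- The flat metrics `d w` of the leaves `B ∖ {em w}` (scaled by the frame `w`): output of (8a),
(8b), (8c). -/
structure Flat where
  d : X → B → B → ℝ
  d_cont : ContinuousOn (fun p : X × B × B => d p.1 p.2.1 p.2.2)
    {p | p.2.1 ≠ L.em p.1 ∧ p.2.2 ≠ L.em p.1}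
  d_smul : ∀ (g : Γ) w η η', η ≠ L.em w → η' ≠ L.em w → d (g • w) (g • η) (g • η') = d w η η'
  d_leaf : ∀ w w' η η', L.em w = L.em w' → η ≠ L.em w → η' ≠ L.em w →
    d w η η' = Real.exp (A.h / 2 * (L.lv w - L.lv w')) * d w' η η'
  d_proper : ∀ K : Set (X × B), IsCompact K → (∀ p ∈ K, p.2 ≠ L.em p.1) → ∀ R : ℝ,
    ∃ V : Set (X × B), IsOpen V ∧ (∀ x, (x, L.em x) ∈ V) ∧
      ∀ p ∈ K, ∀ η', (p.1, η') ∈ V → η' ≠ L.em p.1 → R ≤ d p.1 p.2 η'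
  Z : X → B → E2
  Z_dist : ∀ w η η', η ≠ L.em w → η' ≠ L.em w → dist (Z w η) (Z w η') = d w η η'
  Z_bij : ∀ w, BijOn (Z w) {L.em w}ᶜ univ
  Z_C1 : ∀ w, ContDiffOn ℝ 1 (fun u => Z w (L.e w u)) (ball 0 2)
  c₀ : ℝ
  c₀_pos : 0 < c₀
  Z_det : ∀ w, ∀ u ∈ ball (0 : E2) 2,
    |(fderiv ℝ (fun u => Z w (L.e w u)) u).det| = c₀ * A.s w u

/-- The calibration at one frame `x` whose foot point is the base point `p` of the level function:
second difference of `D` and the product of the two areas. In the geometry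
`T u u' = r₀² ⟨S u, u'⟩`, `S = U + U ∘ flip`. -/
structure Calib where
  x : X
  T : E2 → E2 → ℝ
  T_pos : 0 < dtB T
  D_zero : A.D (L.em x) (L.ep x) = 0
  s_mul : A.s x 0 * A.s (L.flip x) 0 = dtB T
  lv_zero : L.lv x = 0
  lim : ∀ u u' : E2, Tendsto (fun t : ℝ =>
    (A.D (L.e (L.flip x) (t • u')) (L.e x (t • u)) + A.D (L.em x) (L.ep x) -
      A.D (L.em x) (L.e x (t • u)) - A.D (L.e (L.flip x) (t • u')) (L.ep x)) / t ^ 2)
    (𝓝[>] 0) (𝓝 (-T u u'))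
  D_nonpos : ∀ ξ η, ξ ≠ η → A.D ξ η ≤ 0

end Vale.Agent.P207.N3.H662
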