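import Mathlib

/-!
# P207, line N3, package P8: conformal maps between punctured planes which exchange the ends

`conf_or_anti`: a map of the punctured plane whose real derivative is everywhere a similarity and
continuous is holomorphic or antiholomorphic.
`moebius`: a biholomorphic map of punctured planes which exchanges the puncture and infinity is
`q + a / (z - p)`.
-/

open Filter Topology Set Complex

noncomputable section

namespace Vale.Agent.P207.N3.H662

/-- a real linear similarity of the complex plane is complex linear or conjugate linear -/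
theorem sim_cases {L : ℂ →L[ℝ] ℂ} {r : ℝ} (hr : 0 < r) (h : ∀ v, ‖L v‖ = r * ‖v‖) :
    L I = I * L 1 ∨ L I = -(I * L 1) := by
  have h1 : ‖L 1‖ = r := by rw [h]; simp
  have h2 : ‖L I‖ = r := by rw [h]; simp
  have h3 : ‖L 1 + L I‖ ^ 2 = 2 * r ^ 2 := by
    rw [← map_add, h, mul_pow, Complex.sq_norm]
    simp [Complex.normSq_apply]
    ring
  have ha : L 1 ≠ 0 := by
    intro h0
    rw [h0, norm_zero] at h1
    exact hr.ne h1
  have e1 : (L 1).re ^ 2 + (L 1).im ^ 2 = r ^ 2 := by
    rw [← h1, Complex.sq_norm, Complex.normSq_apply]; ring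
  have e2 : (L I).re ^ 2 + (L I).im ^ 2 = r ^ 2 := by
    rw [← h2, Complex.sq_norm, Complex.normSq_apply]; ring
  have e3 : (L 1).re * (L I).re + (L 1).im * (L I).im = 0 := by
    rw [Complex.sq_norm, Complex.normSq_apply, Complex.add_re, Complex.add_im] at h3
    nlinarith
  set a := L 1
  set b := L I
  have hr2 : 0 < r ^ 2 := by positivity
  -- the cross product is ± r²
  have e4 : (a.re * b.im - a.im * b.re) ^ 2 = (r ^ 2) ^ 2 := by
    have : (a.re * b.im - a.im * b.re) ^ 2 =
        (a.re ^ 2 + a.im ^ 2) * (b.re ^ 2 + b.im ^ 2) - (a.re * b.re + a.im * b.im) ^ 2 := by ring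
    rw [this, e1, e2, e3]; ring
  rcases sq_eq_sq_iff_eq_or_eq_neg.1 e4 with e5 | e5
  · left
    apply Complex.ext
    · rw [Complex.mul_re, Complex.I_re, Complex.I_im]
      have : r ^ 2 * (b.re + a.im) = 0 := by
        have : r ^ 2 * b.re = a.re * (a.re * b.re + a.im * b.im) -
            a.im * (a.re * b.im - a.im * b.re) := by rw [← e1]; ring
        rw [mul_add, this, e3, e5]; ring
      have := (mul_eq_zero.1 this).resolve_left hr2.ne'
      linarith
    · rw [Complex.mul_im, Complex.I_re, Complex.I_im]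
      have : r ^ 2 * (b.im - a.re) = 0 := by
        have : r ^ 2 * b.im = a.im * (a.re * b.re + a.im * b.im) +
            a.re * (a.re * b.im - a.im * b.re) := by rw [← e1]; ring
        rw [mul_sub, this, e3, e5]; ring
      have := (mul_eq_zero.1 this).resolve_left hr2.ne'
      linarith
  · right
    apply Complex.ext
    · rw [Complex.neg_re, Complex.mul_re, Complex.I_re, Complex.I_im]
      have : r ^ 2 * (b.re - a.im) = 0 := by
        have : r ^ 2 * b.re = a.re * (a.re * b.re + a.im * b.im) -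
            a.im * (a.re * b.im - a.im * b.re) := by rw [← e1]; ring
        rw [mul_sub, this, e3, e5]; ring
      have := (mul_eq_zero.1 this).resolve_left hr2.ne'
      linarith
    · rw [Complex.neg_im, Complex.mul_im, Complex.I_re, Complex.I_im]
      have : r ^ 2 * (b.im + a.re) = 0 := by
        have : r ^ 2 * b.im = a.im * (a.re * b.re + a.im * b.im) +
            a.re * (a.re * b.im - a.im * b.re) := by rw [← e1]; ring
        rw [mul_add, this, e3, e5]; ring
      have := (mul_eq_zero.1 this).resolve_left hr2.ne'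
      linarith

/-- a real linear map with `L I = I * L 1` is complex linear -/
theorem lin_of {L : ℂ →L[ℝ] ℂ} (h : L I = I * L 1) (v : ℂ) : L v = v * L 1 := by
  have h1 : v = (v.re : ℝ) • (1 : ℂ) + (v.im : ℝ) • I := by
    apply Complex.ext <;> simp
  conv_lhs => rw [h1]
  rw [map_add, map_smul, map_smul, h]
  conv_rhs => rw [h1]
  simp only [Complex.real_smul]
  ring

theorem hasDerivAt_of {f : ℂ → ℂ} {L : ℂ →L[ℝ] ℂ} {z : ℂ} (hf : HasFDerivAt f L z)
    (h : L I = I * L 1) : HasDerivAt f (L 1) z := by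
  rw [hasDerivAt_iff_hasFDerivAt]
  refine hasFDerivAt_of_restrictScalars ℝ hf ?_
  ext1 v
  rw [ContinuousLinearMap.coe_restrictScalars', ContinuousLinearMap.toSpanSingleton_apply,
    lin_of h v, smul_eq_mul]

theorem hasFDerivAt_conj {f : ℂ → ℂ} {L : ℂ →L[ℝ] ℂ} {z : ℂ} (hf : HasFDerivAt f L z) :
    HasFDerivAt (fun z => (starRingEnd ℂ) (f z)) ((conjCLE : ℂ →L[ℝ] ℂ).comp L) z :=
  (conjCLE : ℂ →L[ℝ] ℂ).hasFDerivAt.comp z hf

/-- **conformal maps of the punctured plane** are holomorphic or antiholomorphic -/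
theorem conf_or_anti {f : ℂ → ℂ} {f' : ℂ → ℂ →L[ℝ] ℂ} {p : ℂ} {r : ℂ → ℝ}
    (hd : ∀ z ≠ p, HasFDerivAt f (f' z) z) (hc : ContinuousOn f' {p}ᶜ)
    (hr : ∀ z ≠ p, 0 < r z) (hs : ∀ z ≠ p, ∀ v, ‖f' z v‖ = r z * ‖v‖) :
    DifferentiableOn ℂ f {p}ᶜ ∨ DifferentiableOn ℂ (fun z => (starRingEnd ℂ) (f z)) {p}ᶜ := by
  have hconn : IsPreconnected ({p}ᶜ : Set ℂ) :=
    (isConnected_compl_singleton_of_one_lt_rank (by simp [Complex.rank_real_complex]) p).isPreconnected
  have ev : ∀ w : ℂ, ContinuousOn (fun z => f' z w) {p}ᶜ := fun w =>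
    ((ContinuousLinearMap.apply ℝ ℂ w).continuous.comp_continuousOn hc)
  have c1 : ContinuousOn (fun z => f' z I - I * f' z 1) {p}ᶜ :=
    (ev I).sub (continuousOn_const.mul (ev 1))
  have c2 : ContinuousOn (fun z => f' z I + I * f' z 1) {p}ᶜ :=
    (ev I).add (continuousOn_const.mul (ev 1))
  have hcases : ∀ z ∈ ({p}ᶜ : Set ℂ), f' z I - I * f' z 1 = 0 ∨ f' z I + I * f' z 1 = 0 := by
    intro z hz
    rcases sim_cases (hr z hz) (hs z hz) with h | h
    · exact Or.inl (sub_eq_zero.2 h)
    · exact Or.inr (by rw [h]; ring)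
  have hnot : ∀ z ∈ ({p}ᶜ : Set ℂ), f' z I - I * f' z 1 = 0 → f' z I + I * f' z 1 ≠ 0 := by
    intro z hz h1 h2
    have h3 : f' z I = 0 := by linear_combination (h1 + h2) / 2
    have h4 := hs z hz I
    rw [h3, norm_zero, Complex.norm_I, mul_one] at h4
    exact absurd h4 (hr z hz).ne
  have hall : (∀ z ∈ ({p}ᶜ : Set ℂ), f' z I - I * f' z 1 = 0) ∨
      (∀ z ∈ ({p}ᶜ : Set ℂ), f' z I + I * f' z 1 = 0) := by
    by_contra hcon
    push Not at hcon
    obtain ⟨⟨z₁, hz₁, h1⟩, ⟨z₂, hz₂, h2⟩⟩ := hcon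
    have hclosed := (isPreconnected_iff_subset_of_disjoint.1 hconn)
      {z | z ∈ ({p}ᶜ : Set ℂ) ∧ f' z I - I * f' z 1 ≠ 0}
      {z | z ∈ ({p}ᶜ : Set ℂ) ∧ f' z I + I * f' z 1 ≠ 0}
      (c1.isOpen_inter_preimage isOpen_compl_singleton (isOpen_compl_singleton (x := (0 : ℂ))))
      (c2.isOpen_inter_preimage isOpen_compl_singleton (isOpen_compl_singleton (x := (0 : ℂ))))
      (by
        intro z hz
        by_cases h : f' z I - I * f' z 1 = 0
        · exact Or.inr ⟨hz, hnot z hz h⟩
        · exact Or.inl ⟨hz, h⟩)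
      (by
        ext z
        simp only [mem_inter_iff, mem_ofPred_eq, mem_empty_iff_false, iff_false]
        rintro ⟨hz, ⟨-, ha⟩, ⟨-, hb⟩⟩
        rcases hcases z hz with h | h
        · exact ha h
        · exact hb h)
    rcases hclosed with h | h
    · exact (hcases z₂ hz₂).elim (fun h3 => (h hz₂).2 h3) (fun h3 => h2 h3)
    · exact (hcases z₁ hz₁).elim (fun h3 => h1 h3) (fun h3 => (h hz₁).2 h3)
  rcases hall with h | h
  · left
    intro z hz
    exact (hasDerivAt_of (hd z hz) (sub_eq_zero.1 (h z hz))).differentiableAt.differentiableWithinAt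
  · right
    intro z hz
    refine (hasDerivAt_of (hasFDerivAt_conj (hd z hz)) ?_).differentiableAt.differentiableWithinAt
    have h1 : f' z I = -(I * f' z 1) := eq_neg_of_add_eq_zero_left (h z hz)
    rw [ContinuousLinearMap.comp_apply, ContinuousLinearMap.comp_apply, h1]
    change (starRingEnd ℂ) (-(I * f' z 1)) = I * (starRingEnd ℂ) (f' z 1)
    rw [map_neg, map_mul, Complex.conj_I]
    ring

/-- the behaviour at infinity of a holomorphic map with a limit at infinity -/
theorem bound_infty {f : ℂ → ℂ} {p q : ℂ} (hf : DifferentiableOn ℂ f {p}ᶜ)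
    (h1 : Tendsto f (cocompact ℂ) (𝓝 q)) :
    ∃ K : ℝ, ∀ᶠ z in cocompact ℂ, ‖(z - p) * (f z - q)‖ ≤ K := by
  set F : ℂ → ℂ := fun w => f (p + w⁻¹) - q with hF
  have hd : ∀ w ≠ 0, DifferentiableAt ℂ F w := by
    intro w hw
    have h2 : p + w⁻¹ ≠ p := by simp [hw]
    have h3 : DifferentiableAt ℂ f (p + w⁻¹) :=
      (hf _ h2).differentiableAt (isOpen_compl_singleton.mem_nhds h2)
    exact (DifferentiableAt.comp w h3 ((differentiableAt_inv hw).const_add p)).sub_const q
  have hlim : Tendsto F (𝓝[≠] 0) (𝓝 0) := by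
    have h4 : Tendsto (fun w : ℂ => p + w⁻¹) (𝓝[≠] 0) (cocompact ℂ) := by
      have h5 : Tendsto (fun w : ℂ => w⁻¹) (𝓝[≠] 0) (cocompact ℂ) := by
        rw [← Metric.cobounded_eq_cocompact]
        exact tendsto_inv₀_nhdsNE_zero
      exact (Homeomorph.addLeft p).isClosedEmbedding.tendsto_cocompact.comp h5
    have h6 := (h1.comp h4).sub_const q
    rwa [sub_self] at h6
  set G := Function.update F 0 0 with hG
  have hGd : AnalyticAt ℂ G 0 := by
    refine analyticAt_of_differentiable_on_punctured_nhds_of_continuousAt ?_ ?_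
    · filter_upwards [self_mem_nhdsWithin] with w hw
      have hw' : w ≠ 0 := hw
      refine (hd w hw').congr_of_eventuallyEq ?_
      filter_upwards [isOpen_compl_singleton.mem_nhds hw'] with v hv
      rw [hG, Function.update_of_ne hv]
    · rw [hG, continuousAt_update_same]
      exact hlim
  have hO := hGd.differentiableAt.isBigO_sub
  obtain ⟨K, hK⟩ := hO.bound
  refine ⟨K, ?_⟩
  have h7 : Tendsto (fun z : ℂ => (z - p)⁻¹) (cocompact ℂ) (𝓝 0) := by
    have h8 : Tendsto (fun z : ℂ => z - p) (cocompact ℂ) (cocompact ℂ) :=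
      (Homeomorph.subRight p).isClosedEmbedding.tendsto_cocompact
    rw [← Metric.cobounded_eq_cocompact] at h8 ⊢
    exact tendsto_inv₀_cobounded.comp h8
  have h9 : ∀ᶠ z in cocompact ℂ, z ≠ p := by
    have := (isCompact_singleton (x := p)).compl_mem_cocompact
    exact this
  filter_upwards [h7.eventually hK, h9] with z hz hzp
  have hne : z - p ≠ 0 := sub_ne_zero.2 hzp
  have e1 : G (z - p)⁻¹ = f z - q := by
    rw [hG, Function.update_of_ne (inv_ne_zero hne), hF]
    simp
  have e2 : G 0 = 0 := by rw [hG, Function.update_self]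
  rw [e1, e2, sub_zero, sub_zero, norm_inv] at hz
  rw [norm_mul]
  have hpos : 0 < ‖z - p‖ := norm_pos_iff.2 hne
  calc ‖z - p‖ * ‖f z - q‖ ≤ ‖z - p‖ * (K * ‖z - p‖⁻¹) :=
        mul_le_mul_of_nonneg_left hz hpos.le
    _ = K := by field_simp

/-- **biholomorphic maps between punctured planes which exchange the ends** -/
theorem moebius {f k : ℂ → ℂ} {p q : ℂ} (hf : DifferentiableOn ℂ f {p}ᶜ)
    (hk : DifferentiableOn ℂ k {q}ᶜ) (hfk : ∀ z ≠ p, k (f z) = z)
    (h1 : Tendsto f (cocompact ℂ) (𝓝 q)) (h2 : Tendsto k (cocompact ℂ) (𝓝 p))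
    (h3 : Tendsto f (𝓝[≠] p) (cocompact ℂ)) :
    ∃ a : ℂ, a ≠ 0 ∧ ∀ z ≠ p, f z = q + a / (z - p) := by
  obtain ⟨K, hK⟩ := bound_infty hf h1
  obtain ⟨K', hK'⟩ := bound_infty hk h2
  set h : ℂ → ℂ := fun z => (z - p) * (f z - q) with hh
  have hd : ∀ z ≠ p, DifferentiableAt ℂ h z := fun z hz =>
    ((differentiableAt_id.sub_const p).mul
      (((hf z hz).differentiableAt (isOpen_compl_singleton.mem_nhds hz)).sub_const q))
  have hb : ∀ᶠ z in 𝓝[≠] p, ‖h z‖ ≤ K' := by
    filter_upwards [h3.eventually hK', self_mem_nhdsWithin] with z hz hzp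
    rw [hfk z hzp] at hz
    change ‖(z - p) * (f z - q)‖ ≤ K'
    rwa [mul_comm (z - p)]
  have hev : ∀ᶠ z in 𝓝[≠] p, DifferentiableAt ℂ h z := by
    filter_upwards [self_mem_nhdsWithin] with z hz
    exact hd z hz
  have hlim : Tendsto h (𝓝[≠] p) (𝓝 (limUnder (𝓝[≠] p) h)) := by
    refine Complex.tendsto_limUnder_of_differentiable_on_punctured_nhds_of_bounded_under hev ?_
    refine ⟨K' + ‖h p‖, ?_⟩
    rw [eventually_map]
    filter_upwards [hb] with z hz
    exact (norm_sub_le _ _).trans (by gcongr)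
  set H := Function.update h p (limUnder (𝓝[≠] p) h) with hH
  have hHd : Differentiable ℂ H := by
    intro z
    rcases eq_or_ne z p with rfl | hz
    · refine (analyticAt_of_differentiable_on_punctured_nhds_of_continuousAt ?_ ?_).differentiableAt
      · filter_upwards [self_mem_nhdsWithin] with w hw
        have hw' : w ≠ z := hw
        refine (hd w hw').congr_of_eventuallyEq ?_
        filter_upwards [isOpen_compl_singleton.mem_nhds hw'] with v hv
        rw [hH, Function.update_of_ne hv]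
      · rw [hH, continuousAt_update_same]
        exact hlim
    · refine (hd z hz).congr_of_eventuallyEq ?_
      filter_upwards [isOpen_compl_singleton.mem_nhds hz] with v hv
      rw [hH, Function.update_of_ne hv]
  have hbd : Bornology.IsBounded (range H) := by
    have h9 : ∀ᶠ z in cocompact ℂ, z ≠ p := (isCompact_singleton (x := p)).compl_mem_cocompact
    have h10 : ∀ᶠ z in cocompact ℂ, ‖H z‖ ≤ K := by
      filter_upwards [hK, h9] with z hz hzp
      rwa [hH, Function.update_of_ne hzp]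
    obtain ⟨S, hS, hSK⟩ := mem_cocompact.1 h10
    have h11 : Bornology.IsBounded (H '' S) := (hS.image hHd.continuous).isBounded
    refine (h11.union (Metric.isBounded_closedBall (x := (0 : ℂ)) (r := K))).subset ?_
    rintro _ ⟨z, rfl⟩
    by_cases hz : z ∈ S
    · exact Or.inl ⟨z, hz, rfl⟩
    · exact Or.inr (mem_closedBall_zero_iff.2 (hSK hz))
  have hconst : ∀ z w, H z = H w := fun z w => hHd.apply_eq_apply_of_bounded hbd z w
  have hval : ∀ z ≠ p, h z = H (p + 1) := by
    intro z hz
    rw [← hconst z, hH, Function.update_of_ne hz]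
  refine ⟨H (p + 1), ?_, fun z hz => ?_⟩
  · intro h0
    -- then `f` would be constant
    have e1 : ∀ z ≠ p, f z = q := by
      intro z hz
      have h12 := hval z hz
      rw [h0, hh, mul_eq_zero] at h12
      exact sub_eq_zero.1 (h12.resolve_left (sub_ne_zero.2 hz))
    have hp1 : p + 1 ≠ p := by simp
    have hp2 : p + 2 ≠ p := by simp
    have h13 := hfk _ hp1
    have h14 := hfk _ hp2
    rw [e1 _ hp1] at h13
    rw [e1 _ hp2, h13] at h14
    have h15 : (1 : ℂ) = 2 := add_left_cancel h14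
    norm_num at h15
  · have h12 := hval z hz
    rw [hh] at h12
    have hne : z - p ≠ 0 := sub_ne_zero.2 hz
    rw [← h12]
    field_simp
    ring

end Vale.Agent.P207.N3.H662
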