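import Vale.Agent.P207.N3.H662.Core2

/-!
# P207, line N3, package P8: the flat metrics of the leaves
-/

open Set Filter Topology Metric MeasureTheory
open scoped ContDiff

set_option linter.unusedSectionVars false

noncomputable section

namespace Vale.Agent.P207.N3.H662

variable {Γ X B : Type} [Group Γ] [MetricSpace X] [ProperSpace X] [MulAction Γ X]
  [IsIsometricSMul Γ X] [TopologicalSpace B] [CompactSpace B] [T2Space B] [MulAction Γ B]
  [ContinuousConstSMul Γ B] [MeasurableSpace B] [BorelSpace B] {L : Leaf Γ X B} {A : Area L}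

/-- closed discs form a closed set -/
theorem disc_closed (L : Leaf Γ X B) {K : Set E2} (hK : IsCompact K) (hK3 : K ⊆ closedBall 0 3) :
    IsClosed {q : X × B | q.2 ∈ L.e q.1 '' K} := by
  rw [isClosed_iff_ultrafilter]
  rintro ⟨x, b⟩ 𝒰 h𝒰 hmem
  have hch : ∀ q : X × B, ∃ v : E2, q.2 ∈ L.e q.1 '' K → v ∈ K ∧ L.e q.1 v = q.2 := by
    intro q
    by_cases h : q.2 ∈ L.e q.1 '' K
    · obtain ⟨v, hv, hve⟩ := h
      exact ⟨v, fun _ => ⟨hv, hve⟩⟩
    · exact ⟨0, fun h' => absurd h' h⟩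
  choose v hv using hch
  have hev : ∀ᶠ q in (𝒰 : Filter (X × B)), v q ∈ K ∧ L.e q.1 (v q) = q.2 := by
    filter_upwards [hmem] with q hq using hv q hq
  obtain ⟨v₀, hv₀, hlim⟩ := hK.ultrafilter_le_nhds (𝒰.map v)
    (le_principal_iff.2 (show ∀ᶠ q in (𝒰 : Filter (X × B)), v q ∈ K from by
      filter_upwards [hev] with q hq using hq.1))
  have hlim' : Tendsto v (𝒰 : Filter (X × B)) (𝓝 v₀) := hlim
  have hx : Tendsto (fun q : X × B => q.1) (𝒰 : Filter (X × B)) (𝓝 x) :=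
    (continuous_fst.tendsto (x, b)).mono_left h𝒰
  have hb : Tendsto (fun q : X × B => q.2) (𝒰 : Filter (X × B)) (𝓝 b) :=
    (continuous_snd.tendsto (x, b)).mono_left h𝒰
  have h1 : Tendsto (fun q : X × B => (q.1, v q)) (𝒰 : Filter (X × B))
      (𝓝[univ ×ˢ closedBall 0 3] (x, v₀)) := by
    refine tendsto_nhdsWithin_iff.2 ⟨hx.prodMk_nhds hlim', ?_⟩
    filter_upwards [hev] with q hq using ⟨trivial, hK3 hq.1⟩
  have h2 := (L.e_cont (x, v₀) ⟨trivial, hK3 hv₀⟩).tendsto.comp h1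
  have h3 : Tendsto (fun q : X × B => q.2) (𝒰 : Filter (X × B)) (𝓝 (L.e x v₀)) := by
    refine h2.congr' ?_
    filter_upwards [hev] with q hq using hq.2
  exact ⟨v₀, hv₀, tendsto_nhds_unique h3 hb⟩

namespace CaseI

variable (I : CaseI L A) {C : ℝ}

/-- the limit distance -/
def d (w : X) (η η' : B) : ℝ :=
  limUnder (Fw L I.ξ w ×ˢ (𝓝 η ×ˢ 𝓝 η')) (fun q : Pt L I.ξ × B × B => I.δ q.1 q.2.1 q.2.2)

variable {I}

theorem d_tendsto (hB : I.Bdd C) {w : X} {η η' : B} (h : η ≠ L.em w) (h' : η' ≠ L.em w) :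
    Tendsto (fun q : Pt L I.ξ × B × B => I.δ q.1 q.2.1 q.2.2)
      (Fw L I.ξ w ×ˢ (𝓝 η ×ˢ 𝓝 η')) (𝓝 (I.d w η η')) :=
  tendsto_nhds_limUnder (exists_d hB h h')

/-- convergence along moving points -/
theorem d_tendsto' (hB : I.Bdd C) {w : X} {η η' : B} (h : η ≠ L.em w) (h' : η' ≠ L.em w)
    {ι : Type*} {l : Filter ι} {p : ι → Pt L I.ξ} {a b : ι → B} (hp : Tendsto p l (Fw L I.ξ w))
    (ha : Tendsto a l (𝓝 η)) (hb : Tendsto b l (𝓝 η')) :
    Tendsto (fun i => I.δ (p i) (a i) (b i)) l (𝓝 (I.d w η η')) := by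
  have h1 : Tendsto (fun i => (p i, a i, b i)) l (Fw L I.ξ w ×ˢ (𝓝 η ×ˢ 𝓝 η')) :=
    hp.prodMk (ha.prodMk hb)
  have h2 : Tendsto (fun q : Pt L I.ξ × B × B => I.δ q.1 q.2.1 q.2.2)
      (Fw L I.ξ w ×ˢ (𝓝 η ×ˢ 𝓝 η')) (𝓝 (I.d w η η')) := d_tendsto hB h h'
  have h3 : Tendsto ((fun q : Pt L I.ξ × B × B => I.δ q.1 q.2.1 q.2.2) ∘
    (fun i => (p i, a i, b i))) l (𝓝 (I.d w η η')) := h2.comp h1
  simpa only [Function.comp_def] using h3

theorem d_cont (hB : I.Bdd C) : ContinuousOn (fun p : X × B × B => I.d p.1 p.2.1 p.2.2)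
    {p | p.2.1 ≠ L.em p.1 ∧ p.2.2 ≠ L.em p.1} := by
  rintro ⟨w, η, η'⟩ ⟨h, h'⟩
  rw [ContinuousWithinAt, Metric.tendsto_nhds]
  intro ε hε
  have h1 := (Metric.tendsto_nhds.1 (d_tendsto hB h h')) (ε / 2) (by linarith)
  obtain ⟨t₁, ht₁, t₂, ht₂, hsub⟩ := mem_prod_iff.1 h1
  obtain ⟨U, hU, hUt⟩ := mem_comap.1 ht₁
  rw [← nhds_prod_eq] at ht₂
  have h2 : ∀ᶠ x : X × B × B in 𝓝 (w, η, η'), U ∈ 𝓝 x.1 ∧ t₂ ∈ 𝓝 x.2 := by
    rw [nhds_prod_eq]
    exact (eventually_eventually_nhds.2 hU).prod_mk (eventually_eventually_nhds.2 ht₂)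
  filter_upwards [nhdsWithin_le_nhds h2, self_mem_nhdsWithin] with x hx hx'
  have h3 := d_tendsto hB hx'.1 hx'.2
  have h4 : ∀ᶠ q in Fw L I.ξ x.1 ×ˢ (𝓝 x.2.1 ×ˢ 𝓝 x.2.2),
      dist (I.δ q.1 q.2.1 q.2.2) (I.d w η η') ≤ ε / 2 := by
    have h5 : t₁ ∈ Fw L I.ξ x.1 := mem_of_superset (preimage_mem_comap hx.1) hUt
    have h6 : t₂ ∈ 𝓝 x.2.1 ×ˢ 𝓝 x.2.2 := by rw [← nhds_prod_eq]; exact hx.2
    filter_upwards [prod_mem_prod h5 h6] with q hq
    exact (hsub hq).le
  have h7 := le_of_tendsto (h3.dist tendsto_const_nhds) h4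
  exact lt_of_le_of_lt h7 (by linarith)

/-- the action on pairs -/
def gp (g : Γ) {ξ : B} (p : Pt L ξ) : Pt L ξ :=
  ⟨g * p.g, g • p.w, by rw [L.em_smul, p.em_w, mul_smul]⟩

theorem gp_y (g : Γ) {ξ : B} (p : Pt L ξ) : (gp g p).y = p.y := by
  change (g * p.g)⁻¹ • g • p.w = p.g⁻¹ • p.w
  rw [mul_inv_rev, mul_smul, inv_smul_smul]

theorem δ_gp (g : Γ) (p : Pt L I.ξ) (η η' : B) : I.δ (gp g p) (g • η) (g • η') = I.δ p η η' := by
  have h1 : ∀ b : B, (gp g p).g⁻¹ • g • b = p.g⁻¹ • b := by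
    intro b
    change (g * p.g)⁻¹ • g • b = _
    rw [mul_inv_rev, mul_smul, inv_smul_smul]
  rw [δ, δ, gp_y, h1, h1]

theorem gp_tendsto (g : Γ) (ξ : B) (w : X) :
    Tendsto (gp g) (Fw L ξ w) (Fw L ξ (g • w)) :=
  tendsto_comap_iff.2 ((tendsto_w L ξ w).const_smul g)

theorem d_smul (hB : I.Bdd C) (g : Γ) {w : X} {η η' : B} (h : η ≠ L.em w) (h' : η' ≠ L.em w) :
    I.d (g • w) (g • η) (g • η') = I.d w η η' := by
  have hg : ∀ b : B, b ≠ L.em w → g • b ≠ L.em (g • w) := by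
    intro b hb hcon
    rw [L.em_smul] at hcon
    exact hb (smul_left_cancel _ hcon)
  have h1 := d_tendsto' hB (hg _ h) (hg _ h') (gp_tendsto g I.ξ w) (a := fun _ => g • η)
    (b := fun _ => g • η') tendsto_const_nhds tendsto_const_nhds
  have h2 := d_tendsto' hB h h' (p := fun p : Pt L I.ξ => p) tendsto_id (a := fun _ => η)
    (b := fun _ => η') tendsto_const_nhds tendsto_const_nhds
  simp only [δ_gp] at h1
  exact tendsto_nhds_unique h1 h2

open Classical in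
/-- transport of pairs to another frame of the leaf -/
def tp (w' : X) {ξ : B} (p : Pt L ξ) : Pt L ξ :=
  if h : L.em p.w ≠ L.ep w' then ⟨p.g, L.hol (L.em p.w) w', (L.hol_em _ _ h).trans p.em_w⟩ else p

theorem tp_g (w' : X) {ξ : B} (p : Pt L ξ) : (tp w' p).g = p.g := by
  unfold tp
  split_ifs <;> rfl

theorem tp_w {w' : X} {ξ : B} {p : Pt L ξ} (h : L.em p.w ≠ L.ep w') :
    (tp w' p).w = L.hol (L.em p.w) w' := by
  unfold tp
  rw [dif_pos h]

theorem tp_tendsto {w w' : X} (h : L.em w = L.em w') (ξ : B) :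
    Tendsto (tp w') (Fw L ξ w) (Fw L ξ w') := by
  refine tendsto_comap_iff.2 ?_
  have hne : L.em w ≠ L.ep w' := by rw [h]; exact L.em_ne_ep w'
  have hopen : IsOpen {p : B × X | p.1 ≠ L.ep p.2} := by
    have : IsClosed {p : B × X | p.1 = L.ep p.2} :=
      isClosed_eq continuous_fst (L.ep_cont.comp continuous_snd)
    exact this.isOpen_compl
  have hw := tendsto_w L ξ w
  have h1 : ContinuousAt (fun p : B × X => L.hol p.1 p.2) (L.em w, w') :=
    L.hol_cont.continuousAt (hopen.mem_nhds hne)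
  have h2 : Tendsto (fun p : Pt L ξ => (L.em p.w, w')) (Fw L ξ w) (𝓝 (L.em w, w')) :=
    ((L.em_cont.tendsto w).comp hw).prodMk_nhds tendsto_const_nhds
  have h3 := h1.tendsto.comp h2
  have h4 : L.hol (L.em w) w' = w' := by rw [h]; exact L.hol_self w'
  simp only [h4] at h3
  refine h3.congr' ?_
  filter_upwards [((L.em_cont.tendsto w).comp hw) (isOpen_ne.mem_nhds hne)] with p hp
  exact (tp_w hp).symm

theorem δ_tp (w' : X) (p : Pt L I.ξ) (η η' : B) : I.δ (tp w' p) η η' =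
    Real.exp (A.h / 2 * (L.lv (tp w' p).w - L.lv p.w)) * I.δ p η η' := by
  have h1 : L.lv (tp w' p).y - L.lv p.y = L.lv (tp w' p).w - L.lv p.w := by
    rw [Pt.y, Pt.y, tp_g]
    refine L.lv_smul _ _ _ ?_
    rw [(tp w' p).em_w, p.em_w, tp_g]
  rw [δ, δ, tp_g, ← h1, ← mul_assoc, ← Real.exp_add]
  congr 3
  ring

theorem d_leaf (hB : I.Bdd C) {w w' : X} {η η' : B} (he : L.em w = L.em w') (h : η ≠ L.em w)
    (h' : η' ≠ L.em w) :
    I.d w η η' = Real.exp (A.h / 2 * (L.lv w - L.lv w')) * I.d w' η η' := by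
  have hk : η ≠ L.em w' := by rw [← he]; exact h
  have hk' : η' ≠ L.em w' := by rw [← he]; exact h'
  have h1 := d_tendsto' hB h h' (tp_tendsto he.symm I.ξ) (a := fun _ => η)
    (b := fun _ => η') tendsto_const_nhds tendsto_const_nhds
  have h2 := d_tendsto' hB hk hk' (p := fun p : Pt L I.ξ => p) tendsto_id (a := fun _ => η)
    (b := fun _ => η') tendsto_const_nhds tendsto_const_nhds
  simp only [δ_tp] at h1
  have h3 : Tendsto (fun p : Pt L I.ξ => Real.exp (A.h / 2 * (L.lv (tp w p).w - L.lv p.w)))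
      (Fw L I.ξ w') (𝓝 (Real.exp (A.h / 2 * (L.lv w - L.lv w')))) := by
    have h4 : Tendsto (fun p : Pt L I.ξ => L.lv (tp w p).w) (Fw L I.ξ w') (𝓝 (L.lv w)) :=
      (L.lv_cont.tendsto w).comp ((tendsto_w L I.ξ w).comp (tp_tendsto he.symm I.ξ))
    have h5 : Tendsto (fun p : Pt L I.ξ => L.lv p.w) (Fw L I.ξ w') (𝓝 (L.lv w')) :=
      (L.lv_cont.tendsto w').comp (tendsto_w L I.ξ w')
    exact (Real.continuous_exp.tendsto _).comp ((h4.sub h5).const_mul _)
  exact tendsto_nhds_unique h1 (h3.mul h2)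

theorem d_φ (hB : I.Bdd C) (S : ℝ) {w : X} {η η' : B} (h : η ≠ L.em w) (h' : η' ≠ L.em w) :
    I.d w η η' = Real.exp (A.h / 2 * S) * I.d (L.φ (-S) w) η η' := by
  rw [d_leaf hB (L.em_φ (-S) w).symm h h', L.lv_φ]
  congr 3
  ring

/-- separation for the limit distance -/
theorem Bdd.sep_d (hB : I.Bdd C) {r : ℝ} (hr : 0 < r) (hr1 : r ≤ 1) : ∃ c : ℝ, 0 < c ∧
    ∀ w : X, ∀ u ∈ closedBall (0 : E2) 1, ∀ η', η' ≠ L.em w →
      η' ∉ L.e w '' closedBall u r → c ≤ I.d w (L.e w u) η' := by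
  obtain ⟨c, hc, hsep⟩ := hB.sep hr hr1
  refine ⟨c, hc, fun w u hu η' hη hn => ?_⟩
  have hu3 : u ∈ closedBall (0 : E2) 3 := closedBall_subset_closedBall (by norm_num) hu
  have hK3 : closedBall u r ⊆ closedBall (0 : E2) 3 := by
    intro v hv
    rw [mem_closedBall] at hv hu ⊢
    have := dist_triangle v u 0
    linarith
  have hw := tendsto_w L I.ξ w
  have h1 : ∀ᶠ p : Pt L I.ξ in Fw L I.ξ w, η' ∉ L.e p.w '' closedBall u r := by
    have hc := (disc_closed L (isCompact_closedBall u r) hK3).isOpen_compl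
    have h2 : Tendsto (fun p : Pt L I.ξ => (p.w, η')) (Fw L I.ξ w) (𝓝 (w, η')) :=
      hw.prodMk_nhds tendsto_const_nhds
    exact h2 (hc.mem_nhds hn)
  have h2 : ∀ᶠ p : Pt L I.ξ in Fw L I.ξ w, η' ≠ L.em p.w := by
    have h3 : Tendsto (fun p : Pt L I.ξ => L.em p.w) (Fw L I.ξ w) (𝓝 (L.em w)) :=
      (L.em_cont.tendsto w).comp hw
    filter_upwards [h3 (isOpen_ne.mem_nhds hη.symm)] with p hp using hp.symm
  have h3 : Tendsto (fun p : Pt L I.ξ => L.e p.w u) (Fw L I.ξ w) (𝓝 (L.e w u)) := by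
    have h4 : Tendsto (fun p : Pt L I.ξ => (p.w, u)) (Fw L I.ξ w)
        (𝓝[univ ×ˢ closedBall 0 3] (w, u)) :=
      tendsto_nhdsWithin_iff.2 ⟨hw.prodMk_nhds tendsto_const_nhds,
        Eventually.of_forall fun p => ⟨trivial, hu3⟩⟩
    exact (L.e_cont (w, u) ⟨trivial, hu3⟩).tendsto.comp h4
  have h4 := d_tendsto' hB (L.e_ne w u hu3) hη (p := fun p : Pt L I.ξ => p) tendsto_id h3
    (b := fun _ => η') tendsto_const_nhds
  refine ge_of_tendsto h4 ?_
  filter_upwards [h1, h2] with p hp1 hp2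
  exact hsep p u hu η' hp2 fun hcon => hp1 (image_mono ball_subset_closedBall hcon)

theorem d_self (hB : I.Bdd C) {w : X} {η : B} (h : η ≠ L.em w) : I.d w η η = 0 := by
  have h2 := d_tendsto' hB h h (p := fun p : Pt L I.ξ => p) tendsto_id (a := fun _ => η)
    (b := fun _ => η) tendsto_const_nhds tendsto_const_nhds
  have h3 : ∀ p : Pt L I.ξ, I.δ p η η = 0 := by
    intro p
    rw [δ, sub_self, norm_zero, mul_zero]
  simp only [h3] at h2
  exact tendsto_nhds_unique h2 tendsto_const_nhds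

theorem d_pos (hB : I.Bdd C) {w : X} {η η' : B} (h : η ≠ L.em w) (h' : η' ≠ L.em w)
    (hne : η ≠ η') : 0 < I.d w η η' := by
  obtain ⟨S, hS⟩ := exhaust L h
  obtain ⟨u, hu, hue⟩ := hS S le_rfl
  rw [d_φ hB S h h']
  refine mul_pos (Real.exp_pos _) ?_
  set w' := L.φ (-S) w with hw'
  have hem : L.em w' = L.em w := L.em_φ _ _
  have hu3 : u ∈ closedBall (0 : E2) 3 :=
    ball_subset_closedBall (ball_subset_ball (by norm_num) hu)
  -- a radius
  obtain ⟨r, hr, hr1, hn⟩ : ∃ r : ℝ, 0 < r ∧ r ≤ 1 ∧ η' ∉ L.e w' '' closedBall u r := by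
    by_cases hη' : η' ∈ L.e w' '' closedBall 0 3
    · obtain ⟨v, hv, hve⟩ := hη'
      have huv : v ≠ u := by
        rintro rfl
        exact hne (hue.symm.trans hve)
      have hpos : 0 < dist v u := dist_pos.2 huv
      refine ⟨min 1 (dist v u / 2), lt_min one_pos (by linarith), min_le_left _ _, ?_⟩
      rintro ⟨v', hv', hve'⟩
      have h3 : v' ∈ closedBall (0 : E2) 3 := by
        rw [mem_closedBall] at hv' ⊢
        rw [mem_ball] at hu
        have h4 := dist_triangle v' u 0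
        have h5 : min 1 (dist v u / 2) ≤ 1 := min_le_left _ _
        linarith
      have h6 : v' = v := L.e_inj w' h3 hv (hve'.trans hve.symm)
      rw [h6, mem_closedBall] at hv'
      have h5 : min 1 (dist v u / 2) ≤ dist v u / 2 := min_le_right _ _
      linarith
    · refine ⟨1, one_pos, le_rfl, fun hcon => hη' ?_⟩
      refine image_mono ?_ hcon
      intro v hv
      rw [mem_closedBall] at hv ⊢
      rw [mem_ball] at hu
      have h4 := dist_triangle v u 0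
      linarith
  obtain ⟨c, hc, hsep⟩ := hB.sep_d hr hr1
  have h5 := hsep w' u (ball_subset_closedBall hu) η' (by rw [hem]; exact h') hn
  rw [hue] at h5
  exact lt_of_lt_of_le hc h5

theorem d_proper (hB : I.Bdd C) (K : Set (X × B)) (hK : IsCompact K)
    (hne : ∀ p ∈ K, p.2 ≠ L.em p.1) (R : ℝ) :
    ∃ V : Set (X × B), IsOpen V ∧ (∀ x, (x, L.em x) ∈ V) ∧
      ∀ p ∈ K, ∀ η', (p.1, η') ∈ V → η' ≠ L.em p.1 → R ≤ I.d p.1 p.2 η' := by
  obtain ⟨c₀, hc₀⟩ := exhaust_unif L hK hne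
  obtain ⟨c, hc, hsep⟩ := hB.sep_d one_pos le_rfl
  -- a time
  have hlim : Tendsto (fun S : ℝ => Real.exp (A.h / 2 * S) * c) atTop atTop := by
    have h1 : Tendsto (fun S : ℝ => A.h / 2 * S) atTop atTop :=
      Tendsto.const_mul_atTop (by have := A.h_pos; linarith) tendsto_id
    exact (Real.tendsto_exp_atTop.comp h1).atTop_mul_const hc
  obtain ⟨S, hS1, hS2⟩ := ((eventually_ge_atTop c₀).and (hlim.eventually_ge_atTop R)).exists
  have h2K : closedBall (0 : E2) 2 ⊆ closedBall 0 3 := closedBall_subset_closedBall (by norm_num)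
  have hcl := (disc_closed L (isCompact_closedBall (0 : E2) 2) h2K).isOpen_compl
  have hcm : Continuous fun q : X × B => (L.φ (-S) q.1, q.2) :=
    ((L.φ_cont' (-S)).comp continuous_fst).prodMk continuous_snd
  refine ⟨_, hcl.preimage hcm, fun x hcon => ?_, fun p hp η' hη' hne' => ?_⟩
  · obtain ⟨v, hv, hve⟩ := hcon
    exact L.e_ne _ v (h2K hv) (hve.trans (L.em_φ (-S) x).symm)
  · obtain ⟨u, hu, hue⟩ := hc₀ p hp S hS1
    rw [d_φ hB S (hne p hp) hne']
    refine hS2.trans ?_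
    have h1 := hsep (L.φ (-S) p.1) u (ball_subset_closedBall hu) η' (by
      rw [L.em_φ]; exact hne') (fun hcon => hη' (by
        refine image_mono ?_ hcon
        intro v hv
        rw [mem_closedBall] at hv ⊢
        rw [mem_ball] at hu
        have h4 := dist_triangle v u 0
        linarith))
    rw [hue] at h1
    gcongr

/-! ### coordinates -/

variable (I) in
/-- the isometric coordinate -/
def Z (w : X) (η : B) : E2 :=
  limUnder (Ultrafilter.of (Fw L I.ξ w) : Filter (Pt L I.ξ)) (fun p => I.Zp p η)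

theorem of_le (ξ : B) (w : X) : (Ultrafilter.of (Fw L ξ w) : Filter (Pt L ξ)) ≤ Fw L ξ w :=
  Ultrafilter.of_le _

theorem Z_tendsto (hB : I.Bdd C) {w : X} {η : B} (h : η ≠ L.em w) :
    Tendsto (fun p => I.Zp p η) (Ultrafilter.of (Fw L I.ξ w) : Filter (Pt L I.ξ))
      (𝓝 (I.Z w η)) := by
  refine tendsto_nhds_limUnder ?_
  have hp : Tendsto (fun p : Pt L I.ξ => p) (Ultrafilter.of (Fw L I.ξ w) : Filter (Pt L I.ξ))
      (Fw L I.ξ w) := of_le _ _
  have h1 : Tendsto (fun p : Pt L I.ξ => L.ep p.w)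
      (Ultrafilter.of (Fw L I.ξ w) : Filter (Pt L I.ξ)) (𝓝 (L.ep w)) :=
    (L.ep_cont.tendsto w).comp ((tendsto_w L I.ξ w).comp hp)
  have h2 := d_tendsto' hB h (L.em_ne_ep w).symm hp (a := fun _ => η) tendsto_const_nhds h1
  refine exists_ulim (Ultrafilter.of (Fw L I.ξ w)) (C := I.d w η (L.ep w) + 1) ?_
  filter_upwards [(tendsto_order.1 h2).2 _ (lt_add_one _)] with p hp
  have h3 := I.norm_Zp_sub p η (L.ep p.w)
  rw [I.Zp_ep, sub_zero] at h3
  rw [h3]
  exact hp.le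

theorem Z_dist (hB : I.Bdd C) {w : X} {η η' : B} (h : η ≠ L.em w) (h' : η' ≠ L.em w) :
    dist (I.Z w η) (I.Z w η') = I.d w η η' := by
  have h1 := ((Z_tendsto hB h).sub (Z_tendsto hB h')).norm
  simp only [I.norm_Zp_sub] at h1
  rw [dist_eq_norm]
  exact tendsto_nhds_unique h1 (d_tendsto' hB h h' (of_le I.ξ w) (a := fun _ => η)
    (b := fun _ => η') tendsto_const_nhds tendsto_const_nhds)

theorem Z_bij (hB : I.Bdd C) (w : X) : BijOn (I.Z w) {L.em w}ᶜ univ := by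
  refine ⟨mapsTo_univ _ _, fun η hη η' hη' heq => ?_, fun z _ => ?_⟩
  · by_contra hne
    have h1 := d_pos hB hη hη' hne
    rw [← Z_dist hB hη hη', heq, dist_self] at h1
    exact lt_irrefl _ h1
  -- surjectivity
  have hch : ∀ p : Pt L I.ξ, ∃ η : B, η ≠ L.em p.w ∧ I.Zp p η = z := by
    intro p
    obtain ⟨b, hb, hbe⟩ := I.f_bij.surjOn (mem_univ
      ((Real.exp (A.h * L.lv p.y / 2))⁻¹ • z + I.f (L.ep p.y)))
    refine ⟨p.g • b, fun hcon => ?_, ?_⟩
    · rw [p.em_w] at hcon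
      exact hb (smul_left_cancel _ hcon)
    · rw [Zp, inv_smul_smul, hbe, add_sub_cancel_right, smul_inv_smul₀ (Real.exp_pos _).ne']
  choose b hb1 hb2 using hch
  set 𝒰 := Ultrafilter.of (Fw L I.ξ w) with h𝒰
  obtain ⟨η, -, hη⟩ := isCompact_univ.ultrafilter_le_nhds (𝒰.map b) (le_principal_iff.2 univ_mem)
  have hη' : Tendsto b (𝒰 : Filter (Pt L I.ξ)) (𝓝 η) := hη
  -- the limit is not the pole
  obtain ⟨c, hc, hsep⟩ := hB.sep one_pos le_rfl
  have hlim : Tendsto (fun S : ℝ => Real.exp (A.h * S / 2) * c) atTop atTop := by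
    have h1 : Tendsto (fun S : ℝ => A.h / 2 * S) atTop atTop :=
      Tendsto.const_mul_atTop (by have := A.h_pos; linarith) tendsto_id
    have h2 := (Real.tendsto_exp_atTop.comp h1).atTop_mul_const hc
    refine h2.congr fun S => ?_
    simp only [Function.comp_apply]
    congr 2
    ring
  obtain ⟨S, hS⟩ := (hlim.eventually_gt_atTop ‖z‖).exists
  have hin : ∀ p : Pt L I.ξ, b p ∈ L.e (L.φ (-S) p.w) '' closedBall 0 1 := by
    intro p
    by_contra hcon
    have h1 := hsep (sh (-S) p) 0 (by simp) (b p) (by rw [sh_w, L.em_φ]; exact hb1 p)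
      (fun h => hcon (image_mono ball_subset_closedBall h))
    have h2 : I.δ p (L.ep p.w) (b p) = Real.exp (A.h * S / 2) *
        I.δ (sh (-S) p) (L.ep p.w) (b p) := by
      rw [I.δ_sh, ← mul_assoc, ← Real.exp_add]
      have h3 : A.h * S / 2 + A.h * -S / 2 = 0 := by ring
      rw [h3, Real.exp_zero, one_mul]
    have h3 : I.δ p (L.ep p.w) (b p) = ‖z‖ := by
      rw [← I.norm_Zp_sub, I.Zp_ep, hb2, zero_sub, norm_neg]
    rw [L.e_zero, sh_w, L.ep_φ] at h1
    rw [h3] at h2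
    have h4 : Real.exp (A.h * S / 2) * c ≤ ‖z‖ := by
      rw [h2]
      gcongr
    linarith
  have hw : Tendsto Pt.w (𝒰 : Filter (Pt L I.ξ)) (𝓝 w) :=
    (tendsto_w L I.ξ w).mono_left (of_le _ _)
  have hne : η ≠ L.em w := by
    have h13 : closedBall (0 : E2) 1 ⊆ closedBall 0 3 := closedBall_subset_closedBall (by norm_num)
    have hcl := disc_closed L (isCompact_closedBall (0 : E2) 1) h13
    have h1 : Tendsto (fun p : Pt L I.ξ => (L.φ (-S) p.w, b p)) (𝒰 : Filter (Pt L I.ξ))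
        (𝓝 (L.φ (-S) w, η)) := (((L.φ_cont' (-S)).tendsto w).comp hw).prodMk_nhds hη'
    obtain ⟨v, hv, hve⟩ := hcl.mem_of_tendsto h1 (Eventually.of_forall hin)
    have h2 := L.e_ne (L.φ (-S) w) v (h13 hv)
    rw [L.em_φ] at h2
    simp only at hve
    rw [← hve]
    exact h2
  refine ⟨η, hne, ?_⟩
  have h1 := d_tendsto' hB hne hne (of_le I.ξ w) (a := fun _ => η) tendsto_const_nhds hη'
  rw [d_self hB hne] at h1
  simp only [← I.norm_Zp_sub, hb2] at h1
  exact tendsto_nhds_unique (Z_tendsto hB hne) (tendsto_iff_norm_sub_tendsto_zero.2 h1)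

/-- the coordinate in the chart is a limit map -/
theorem exists_Z_lim (hB : I.Bdd C) (w : X) : ∃ G1 G2,
    IsLimMap I (Ultrafilter.of (Fw L I.ξ w)) w (fun u => I.Z w (L.e w u)) G1 G2 := by
  obtain ⟨G, G1, G2, hG⟩ := hB.exists_lim (Ultrafilter.of (Fw L I.ξ w)) (of_le I.ξ w)
  have key : ∀ u ∈ ball (0 : E2) 2, I.Z w (L.e w u) = G u := by
    intro u hu
    have hu3 : u ∈ closedBall (0 : E2) 3 := ball_subset_closedBall (two3 hu)
    have hne := L.e_ne w u hu3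
    have hw : Tendsto Pt.w (Ultrafilter.of (Fw L I.ξ w) : Filter (Pt L I.ξ)) (𝓝 w) :=
      (tendsto_w L I.ξ w).mono_left (of_le _ _)
    have h3 : Tendsto (fun p : Pt L I.ξ => L.e p.w u)
        (Ultrafilter.of (Fw L I.ξ w) : Filter (Pt L I.ξ)) (𝓝 (L.e w u)) := by
      have h4 : Tendsto (fun p : Pt L I.ξ => (p.w, u))
          (Ultrafilter.of (Fw L I.ξ w) : Filter (Pt L I.ξ))
          (𝓝[univ ×ˢ closedBall 0 3] (w, u)) :=
        tendsto_nhdsWithin_iff.2 ⟨hw.prodMk_nhds tendsto_const_nhds,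
          Eventually.of_forall fun p => ⟨trivial, hu3⟩⟩
      exact (L.e_cont (w, u) ⟨trivial, hu3⟩).tendsto.comp h4
    have h1 := d_tendsto' hB hne hne (of_le I.ξ w) (a := fun _ => L.e w u) tendsto_const_nhds h3
    rw [d_self hB hne] at h1
    have h5 : ∀ p : Pt L I.ξ, I.δ p (L.e w u) (L.e p.w u) = ‖I.Zp p (L.e w u) - I.F p.y u‖ := by
      intro p
      rw [← I.norm_Zp_sub, I.Zp_e p hu3]
    simp only [h5] at h1
    have h6 := (tendsto_zero_iff_norm_tendsto_zero.2 h1).add (hG.tF u hu)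
    rw [zero_add] at h6
    simp only [sub_add_cancel] at h6
    exact tendsto_nhds_unique (Z_tendsto hB hne) h6
  refine ⟨G1, G2, ?_, hG.tF1, fun u hu => ?_, hG.dF1, hG.det⟩
  · intro u hu
    rw [key u hu]
    exact hG.tF u hu
  · refine (hG.dF u hu).congr_of_eventuallyEq ?_
    filter_upwards [isOpen_ball.mem_nhds hu] with v hv using key v hv

theorem Z_C1 (hB : I.Bdd C) (w : X) :
    ContDiffOn ℝ 1 (fun u => I.Z w (L.e w u)) (ball 0 2) := by
  obtain ⟨G1, G2, hG⟩ := exists_Z_lim hB w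
  rw [show (1 : WithTop ℕ∞) = 0 + 1 from rfl, contDiffOn_succ_iff_fderiv_of_isOpen isOpen_ball]
  refine ⟨fun u hu => (hG.dF u hu).differentiableAt.differentiableWithinAt, by simp, ?_⟩
  rw [contDiffOn_zero]
  refine ContinuousOn.congr (f := G1) (fun u hu => (hG.dF1 u hu).continuousAt.continuousWithinAt)
    fun u hu => (hG.dF u hu).fderiv

theorem Z_det (hB : I.Bdd C) (w : X) {u : E2} (hu : u ∈ ball (0 : E2) 2) :
    |(fderiv ℝ (fun u => I.Z w (L.e w u)) u).det| = I.c₀ * A.s w u := by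
  obtain ⟨G1, G2, hG⟩ := exists_Z_lim hB w
  rw [(hG.dF u hu).fderiv]
  exact hG.det u hu

variable (I) in
/-- **the flat metrics of the leaves** (8a), (8b), (8c) -/
def flat (hB : I.Bdd C) : Flat L A where
  d := I.d
  d_cont := d_cont hB
  d_smul := fun g _ _ _ h h' => d_smul hB g h h'
  d_leaf := fun _ _ _ _ he h h' => d_leaf hB he h h'
  d_proper := d_proper hB
  Z := I.Z
  Z_dist := fun _ _ _ h h' => Z_dist hB h h'
  Z_bij := Z_bij hB
  Z_C1 := Z_C1 hB
  c₀ := I.c₀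
  c₀_pos := I.c₀_pos
  Z_det := fun w _ hu => Z_det hB w hu

end CaseI

end Vale.Agent.P207.N3.H662
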