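import Vale.Agent.P207.H575.T3.Lim
import Vale.Agent.P207.N3.H662.Core3

/-!
# P207, line N3, package P8: uniform bounds of the rescaled coordinates in case (i)
-/

open Set Filter Topology Metric MeasureTheory
open scoped ContDiff

set_option linter.unusedSectionVars false
set_option maxSynthPendingDepth 3

noncomputable section

namespace Vale.Agent.P207.N3.H662

variable {Γ X B : Type} [Group Γ] [MetricSpace X] [ProperSpace X] [MulAction Γ X]
  [IsIsometricSMul Γ X] [TopologicalSpace B] [CompactSpace B] [T2Space B] [MulAction Γ B]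
  [ContinuousConstSMul Γ B] [MeasurableSpace B] [BorelSpace B] {L : Leaf Γ X B} {A : Area L}

namespace CaseI

variable (I : CaseI L A)

/-- bound of the differential at the homoclinic points -/
theorem hom : L.HOM I.ξ I.η₀ I.f (A.h / 2) := by
  intro Q hQ hQe
  -- bounds on the compact set
  have hGc : ContinuousOn I.G Q := I.G_cont.mono fun y hy => hQe y hy
  obtain ⟨C1, hC1⟩ := hQ.bddAbove_image (f := fun y => ‖I.G y‖) hGc.norm
  obtain ⟨C2, hC2⟩ := hQ.bddAbove_image (f := fun y => |(I.G y).det|⁻¹)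
    ((ContinuousLinearMap.continuous_det.comp_continuousOn hGc).abs.inv₀ fun y hy =>
      abs_ne_zero.2 (I.G_det y (hQe y hy)))
  have hsc : Continuous fun y : X => A.s y 0 := by
    rw [continuous_iff_continuousAt]
    intro y
    exact s_tendsto A tendsto_id tendsto_const_nhds (by simp)
  obtain ⟨C3, hC3⟩ := hQ.bddAbove_image (f := fun y => A.s y 0) hsc.continuousOn
  have hC1' : ∀ y ∈ Q, ‖I.G y‖ ≤ C1 := fun y hy => hC1 ⟨y, hy, rfl⟩
  have hC2' : ∀ y ∈ Q, |(I.G y).det|⁻¹ ≤ C2 := fun y hy => hC2 ⟨y, hy, rfl⟩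
  have hC3' : ∀ y ∈ Q, A.s y 0 ≤ C3 := fun y hy => hC3 ⟨y, hy, rfl⟩
  refine ⟨Real.sqrt (I.c₀ * C3 * C1 ^ 2 * C2), fun y hy k hk _ => ?_⟩
  obtain ⟨c, O, -, hc⟩ := I.conf y k (hQe y hy) hk
  have h0 : (0 : E2) ∈ ball (0 : E2) 3 := by simp
  have hdet : |(fderiv ℝ (fun u => I.f (L.e (k • y) u)) 0).det| =
      I.c₀ * Real.exp (-A.h * L.lv (k • y)) * A.s y 0 := by
    rw [I.f_det _ hk 0 h0, A.s_smul k y 0 h0]
  have hs0 : 0 < A.s y 0 := A.s_pos y 0 h0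
  have hc0 := I.c₀_pos
  have hd0 : 0 < |(I.G y).det| := abs_pos.2 (I.G_det y (hQe y hy))
  have hC30 : 0 ≤ C3 := hs0.le.trans (hC3' y hy)
  have hC20 : 0 ≤ C2 := (inv_pos.2 hd0).le.trans (hC2' y hy)
  have hE : Real.exp (-(A.h / 2 * L.lv (k • y))) ^ 2 = Real.exp (-A.h * L.lv (k • y)) := by
    rw [← Real.exp_nat_mul]
    congr 1
    push_cast
    ring
  refine ContinuousLinearMap.opNorm_le_bound _ (by positivity) fun v => ?_
  have h1 := norm_sq_eq hc v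
  rw [hdet] at h1
  have h2 : ‖fderiv ℝ (fun u => I.f (L.e (k • y) u)) 0 v‖ ^ 2 ≤
      (Real.sqrt (I.c₀ * C3 * C1 ^ 2 * C2) * Real.exp (-(A.h / 2 * L.lv (k • y))) * ‖v‖) ^ 2 := by
    rw [mul_pow, mul_pow, Real.sq_sqrt (by positivity), hE]
    have h3 : ‖fderiv ℝ (fun u => I.f (L.e (k • y) u)) 0 v‖ ^ 2 =
        I.c₀ * Real.exp (-A.h * L.lv (k • y)) * A.s y 0 * ‖I.G y v‖ ^ 2 * |(I.G y).det|⁻¹ := by
      rw [← h1, mul_assoc, mul_inv_cancel₀ hd0.ne', mul_one]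
    rw [h3]
    have h4 : ‖I.G y v‖ ≤ C1 * ‖v‖ := ((I.G y).le_opNorm v).trans (by
      have := hC1' y hy
      gcongr)
    have h5 : ‖I.G y v‖ ^ 2 ≤ C1 ^ 2 * ‖v‖ ^ 2 := by
      rw [← mul_pow]
      gcongr
    calc I.c₀ * Real.exp (-A.h * L.lv (k • y)) * A.s y 0 * ‖I.G y v‖ ^ 2 * |(I.G y).det|⁻¹
        ≤ I.c₀ * Real.exp (-A.h * L.lv (k • y)) * C3 * (C1 ^ 2 * ‖v‖ ^ 2) * C2 := by
          have := hC3' y hy
          have := hC2' y hy
          gcongr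
      _ = _ := by ring
  exact (pow_le_pow_iff_left₀ (norm_nonneg _) (by positivity) two_ne_zero).1 h2

theorem uall : L.UALL I.ξ I.f (A.h / 2) := L.u_all I.f_smooth I.hom

/-! ### equivariance under `β` -/

theorem β_pow (n : ℕ) : ∃ b : O2, I.β ^ n • I.x₀ = L.φ (n * I.l) (L.rot b I.x₀) := by
  induction n with
  | zero => exact ⟨1, by rw [pow_zero, one_smul, Nat.cast_zero, zero_mul, L.φ_zero, L.rot_one]⟩
  | succ n ih =>
    obtain ⟨b, hb⟩ := ih
    refine ⟨I.a * b, ?_⟩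
    rw [pow_succ', mul_smul, hb, ← L.φ_smul, ← L.rot_smul, I.axis.eq, L.rot_φ, ← L.φ_add,
      L.rot_mul]
    congr 1
    push_cast
    ring

theorem β_ξ : I.β • I.ξ = I.ξ := by
  have h1 := congrArg L.em I.axis.eq
  rwa [L.em_smul, L.em_φ, L.em_rot, I.em_x₀] at h1

theorem β_pow_ξ (n : ℕ) : I.β ^ n • I.ξ = I.ξ := by
  induction n with
  | zero => rw [pow_zero, one_smul]
  | succ n ih => rw [pow_succ', mul_smul, ih, I.β_ξ]

theorem em_β_pow (n : ℕ) {y : X} (hy : L.em y = I.ξ) : L.em (I.β ^ n • y) = I.ξ := by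
  rw [L.em_smul, hy, I.β_pow_ξ]

theorem lv_β_pow (n : ℕ) {y : X} (hy : L.em y = I.ξ) :
    L.lv (I.β ^ n • y) = L.lv y + n * I.l := by
  have h1 := L.lv_smul (I.β ^ n) y I.x₀ (hy.trans I.em_x₀.symm)
  obtain ⟨b, hb⟩ := I.β_pow n
  rw [hb, L.lv_φ, L.lv_rot] at h1
  linarith

theorem f_β_pow (n : ℕ) : ∃ O : E2 ≃ₗᵢ[ℝ] E2, ∀ η, η ≠ I.ξ →
    I.f (I.β ^ n • η) = Real.exp (-(A.h * (n * I.l) / 2)) • O (I.f η) := by
  induction n with
  | zero =>
    refine ⟨LinearIsometryEquiv.refl ℝ E2, fun η _ => ?_⟩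
    simp
  | succ n ih =>
    obtain ⟨O, hO⟩ := ih
    refine ⟨O.trans I.Λ, fun η hη => ?_⟩
    have hne : I.β ^ n • η ≠ I.ξ := by
      intro hcon
      rw [← I.β_pow_ξ n] at hcon
      exact hη (smul_left_cancel _ hcon)
    rw [pow_succ', mul_smul, I.equivar _ hne, hO η hη, map_smul, smul_smul, ← Real.exp_add,
      LinearIsometryEquiv.trans_apply]
    congr 2
    push_cast
    ring

theorem F_β_pow (n : ℕ) : ∃ O : E2 ≃ₗᵢ[ℝ] E2, ∀ y, L.em y = I.ξ → ∀ u ∈ closedBall (0 : E2) 3,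
    I.F (I.β ^ n • y) u = O (I.F y u) := by
  obtain ⟨O, hO⟩ := I.f_β_pow n
  refine ⟨O, fun y hy u hu => ?_⟩
  have h1 : L.e y u ≠ I.ξ := by rw [← hy]; exact L.e_ne y u hu
  have h2 : L.ep y ≠ I.ξ := by rw [← hy]; exact (L.em_ne_ep y).symm
  rw [F, F, L.e_smul _ _ _ hu, L.ep_smul, hO _ h1, hO _ h2, I.lv_β_pow n hy, ← smul_sub,
    smul_smul, ← Real.exp_add, map_smul, map_sub]
  congr 2
  ring

/-- every frame of the leaf of `ξ` is moved by a power of `β` over a fixed compact set, to a large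
level -/
theorem exists_pow {y : X} (hy : L.em y = I.ξ) (T : ℝ) : ∃ n : ℕ,
    L.ep (I.β ^ n • y) ∈ L.e I.x₀ '' closedBall 0 1 ∧ T ≤ L.lv (I.β ^ n • y) := by
  have hne : L.ep y ≠ L.em I.x₀ := by
    rw [I.em_x₀, ← hy]
    exact (L.em_ne_ep y).symm
  obtain ⟨c₀, hc₀⟩ := exhaust L hne
  obtain ⟨n, hn⟩ := exists_nat_ge (max c₀ (T - L.lv y) / I.l)
  have hl := I.axis.pos
  rw [div_le_iff₀ hl] at hn
  refine ⟨n, ?_, ?_⟩
  · obtain ⟨u, hu, hue⟩ := hc₀ (n * I.l) ((le_max_left _ _).trans hn)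
    obtain ⟨b, hb⟩ := I.β_pow n
    have hu3 : u ∈ closedBall (0 : E2) 3 :=
      ball_subset_closedBall (ball_subset_ball (by norm_num) hu)
    refine ⟨b u, ?_, ?_⟩
    · rw [mem_closedBall, dist_zero_right, LinearIsometryEquiv.norm_map]
      rw [mem_ball, dist_zero_right] at hu
      exact hu.le
    · rw [L.ep_smul, ← hue, ← L.e_smul _ _ _ hu3, ← L.φ_smul, hb, ← L.φ_add, neg_add_cancel,
        L.φ_zero, L.e_rot _ _ _ hu3]
  · rw [I.lv_β_pow n hy]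
    have := (le_max_right c₀ (T - L.lv y)).trans hn
    linarith

/-- **the uniform bounds** -/
theorem exists_bdd : ∃ C : ℝ, I.Bdd C := by
  -- the compact set
  set K₀ : Set B := L.e I.x₀ '' closedBall 0 1 with hK₀
  have hK₀c : IsCompact K₀ := L.disc_compact _ (by norm_num)
  have hξ : I.ξ ∉ K₀ := by
    rintro ⟨u, hu, hue⟩
    refine L.e_ne I.x₀ u (closedBall_subset_closedBall (by norm_num) hu) ?_
    rw [hue, I.em_x₀]
  have hKc := L.lev0_compact hK₀c hξ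
  obtain ⟨C, hC⟩ := L.uall_bound I.f_smooth I.uall hKc (fun x hx => hx.1)
  have base : ∀ y, L.em y = I.ξ → L.ep y ∈ K₀ → L.t1 ≤ L.lv y → H545.CkB 3 3 (C 3) (I.F y) := by
    intro y hy hye hyl
    have hx : L.φ (-(L.lv y)) y ∈ L.lev0 I.ξ K₀ := by
      refine ⟨by rw [L.em_φ, hy], by rw [L.ep_φ]; exact hye, ?_⟩
      rw [L.lv_φ, add_neg_cancel]
    have h1 := hC _ hx (L.lv y) hyl 3
    have h2 : L.φ (L.lv y) (L.φ (-(L.lv y)) y) = y := by
      rw [← L.φ_add, add_neg_cancel, L.φ_zero]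
    rw [h2, L.ep_φ] at h1
    have h3 : (fun u => Real.exp (A.h / 2 * L.lv y) • (I.f (L.e y u) - I.f (L.ep y))) = I.F y := by
      funext u
      rw [F]
      congr 2
      ring
    rwa [h3] at h1
  have all : ∀ y, L.em y = I.ξ → H545.CkB 3 3 (C 3) (I.F y) := by
    intro y hy
    obtain ⟨n, hn1, hn2⟩ := I.exists_pow hy L.t1
    obtain ⟨O, hO⟩ := I.F_β_pow n
    have h1 := base _ (I.em_β_pow n hy) hn1 hn2
    have h2 : ∀ u ∈ ball (0 : E2) 3, I.F y u = O.symm (I.F (I.β ^ n • y) u) := by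
      intro u hu
      rw [hO y hy u (ball_subset_closedBall hu), LinearIsometryEquiv.symm_apply_apply]
    refine ⟨(I.F_smooth hy).of_le (by norm_cast), fun i hi u hu => ?_⟩
    have h3 : I.F y =ᶠ[𝓝 u] O.symm ∘ I.F (I.β ^ n • y) := by
      filter_upwards [isOpen_ball.mem_nhds hu] with v hv using h2 v hv
    rw [(h3.iteratedFDeriv ℝ i).eq_of_nhds, LinearIsometryEquiv.norm_iteratedFDeriv_comp_left]
    exact h1.2 i hi u hu
  have hn0 : 0 ≤ C 3 := (norm_nonneg _).trans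
    ((all (L.φ 0 I.x₀) (by rw [L.em_φ, I.em_x₀])).2 0 (by norm_num) 0 (by simp))
  have n1 : ∀ y u, ‖I.F1 y u‖ = ‖iteratedFDeriv ℝ 1 (I.F y) u‖ := by
    intro y u
    rw [norm_iteratedFDeriv_one, F1]
  have n2 : ∀ y u, ‖I.F2 y u‖ = ‖iteratedFDeriv ℝ 2 (I.F y) u‖ := by
    intro y u
    have h1 : ‖iteratedFDeriv ℝ 1 (fderiv ℝ (I.F y)) u‖ = ‖iteratedFDeriv ℝ (1 + 1) (I.F y) u‖ :=
      norm_iteratedFDeriv_fderiv
    rw [norm_iteratedFDeriv_one] at h1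
    exact h1
  have n3 : ∀ y u, ‖fderiv ℝ (I.F2 y) u‖ = ‖iteratedFDeriv ℝ 3 (I.F y) u‖ := by
    intro y u
    have h1 : ‖iteratedFDeriv ℝ 2 (fderiv ℝ (I.F y)) u‖ = ‖iteratedFDeriv ℝ (2 + 1) (I.F y) u‖ :=
      norm_iteratedFDeriv_fderiv
    have h2 : ‖iteratedFDeriv ℝ 1 (fderiv ℝ (I.F1 y)) u‖ =
        ‖iteratedFDeriv ℝ (1 + 1) (I.F1 y) u‖ := norm_iteratedFDeriv_fderiv
    rw [norm_iteratedFDeriv_one] at h2
    exact h2.trans h1
  refine ⟨C 3, hn0, fun y hy u hu => ?_, fun y hy u hu => ?_, fun y hy u hu v hv => ?_⟩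
  · rw [n1]
    exact (all y hy).2 1 (by norm_num) u (two3 hu)
  · rw [n2]
    exact (all y hy).2 2 (by norm_num) u (two3 hu)
  · refine lip_of (convex_ball (0 : E2) 2) (G1 := fderiv ℝ (I.F2 y)) (fun u hu => ?_)
      (fun u hu => ?_) hu hv
    · have h1 : ContDiffAt ℝ 2 (I.F1 y) u :=
        (I.F_smoothAt hy (two3 hu)).fderiv_right (m := 2) (by norm_cast)
      have h2 : ContDiffAt ℝ 1 (I.F2 y) u := h1.fderiv_right (m := 1) (by norm_num)
      exact (h2.differentiableAt (by simp)).hasFDerivAt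
    · rw [n3]
      exact (all y hy).2 3 le_rfl u (two3 hu)

/-- **the flat metrics in case (i)** -/
theorem exists_flat (I : CaseI L A) : Nonempty (Flat L A) := by
  obtain ⟨C, hC⟩ := I.exists_bdd
  exact ⟨I.flat hC⟩

end CaseI

end Vale.Agent.P207.N3.H662
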