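import Mathlib

/-!
# P207, line N3, package P8: maps of class `C²` with the same pulled back metric
-/

open Filter Topology Set
open scoped RealInnerProductSpace

noncomputable section

namespace Vale.Agent.P207.N3.H662

variable {V : Type*} [NormedAddCommGroup V] [InnerProductSpace ℝ V] [FiniteDimensional ℝ V]

/-- a trilinear expression, symmetric in the first two and antisymmetric in the last two
arguments, vanishes -/
theorem sym_anti {α : Type*} {t : α → α → α → ℝ} (hs : ∀ a b c, t a b c = t b a c)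
    (ha : ∀ a b c, t a b c + t a c b = 0) (a b c : α) : t a b c = 0 := by
  have h1 := ha a b c
  have h2 := hs a c b
  have h3 := ha c a b
  have h4 := hs c b a
  have h5 := ha b c a
  have h6 := hs b a c
  linarith

section

variable {S : Set V} {F F' : V → V} {F1 F1' : V → V →L[ℝ] V}
  {F2 F2' : V → V →L[ℝ] V →L[ℝ] V}

omit [FiniteDimensional ℝ V] in
/-- the second derivatives correspond -/
theorem second_eq (hS : IsOpen S) (h1 : ∀ u ∈ S, HasFDerivAt F (F1 u) u)
    (h2 : ∀ u ∈ S, HasFDerivAt F1 (F2 u) u) (h1' : ∀ u ∈ S, HasFDerivAt F' (F1' u) u)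
    (h2' : ∀ u ∈ S, HasFDerivAt F1' (F2' u) u)
    (heq : ∀ u ∈ S, ∀ a b, ⟪F1 u a, F1 u b⟫ = ⟪F1' u a, F1' u b⟫) {u : V} (hu : u ∈ S)
    (c a b : V) : ⟪F2 u c a, F1 u b⟫ = ⟪F2' u c a, F1' u b⟫ := by
  have hnh : S ∈ 𝓝 u := hS.mem_nhds hu
  have sy : ∀ v w, F2 u v w = F2 u w v :=
    second_derivative_symmetric_of_eventually (by filter_upwards [hnh] with y hy using h1 y hy)
      (h2 u hu)
  have sy' : ∀ v w, F2' u v w = F2' u w v :=
    second_derivative_symmetric_of_eventually (by filter_upwards [hnh] with y hy using h1' y hy)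
      (h2' u hu)
  have der : ∀ (G1 : V → V →L[ℝ] V) (G2 : V → V →L[ℝ] V →L[ℝ] V), HasFDerivAt G1 (G2 u) u →
      ∀ a b c, HasDerivAt (fun t : ℝ => ⟪G1 (u + t • c) a, G1 (u + t • c) b⟫)
        (⟪G1 u a, G2 u c b⟫ + ⟪G2 u c a, G1 u b⟫) 0 := by
    intro G1 G2 hG a b c
    have e : HasFDerivAt G1 (G2 u) (u + (0 : ℝ) • c) := by rwa [zero_smul, add_zero]
    have hl : HasDerivAt (fun t : ℝ => u + t • c) c 0 := by
      have := ((hasDerivAt_id (0 : ℝ)).smul_const c).const_add u
      rwa [one_smul] at this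
    have h3 := e.comp_hasDerivAt (0 : ℝ) hl
    have ha : HasDerivAt (fun t : ℝ => G1 (u + t • c) a) (G2 u c a) 0 :=
      ((ContinuousLinearMap.apply ℝ V a).hasFDerivAt.comp_hasDerivAt (0 : ℝ) h3)
    have hb : HasDerivAt (fun t : ℝ => G1 (u + t • c) b) (G2 u c b) 0 :=
      ((ContinuousLinearMap.apply ℝ V b).hasFDerivAt.comp_hasDerivAt (0 : ℝ) h3)
    have := ha.inner ℝ hb
    simpa using this
  refine sub_eq_zero.1 (sym_anti (t := fun c a b => ⟪F2 u c a, F1 u b⟫ - ⟪F2' u c a, F1' u b⟫)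
    (fun c a b => by rw [sy c a, sy' c a]) (fun c a b => ?_) c a b)
  have d1 := der F1 F2 (h2 u hu) a b c
  have d2 := der F1' F2' (h2' u hu) a b c
  have hev : (fun t : ℝ => ⟪F1 (u + t • c) a, F1 (u + t • c) b⟫) =ᶠ[𝓝 0]
      fun t : ℝ => ⟪F1' (u + t • c) a, F1' (u + t • c) b⟫ := by
    have hcont : ContinuousAt (fun t : ℝ => u + t • c) 0 := by fun_prop
    have : ∀ᶠ t in 𝓝 (0 : ℝ), u + t • c ∈ S := hcont (by simpa using hnh)
    filter_upwards [this] with t ht
    exact heq _ ht a b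
  have h5 := (d1.congr_of_eventuallyEq hev.symm).unique d2
  rw [real_inner_comm (F2 u c b) (F1 u a), real_inner_comm (F2' u c b) (F1' u a)] at h5
  linarith

/-- **maps of class `C²` with the same pulled back metric** differ by a rigid motion -/
theorem rigid (hS : IsOpen S) (hc : IsPreconnected S) (h1 : ∀ u ∈ S, HasFDerivAt F (F1 u) u)
    (h2 : ∀ u ∈ S, HasFDerivAt F1 (F2 u) u) (h1' : ∀ u ∈ S, HasFDerivAt F' (F1' u) u)
    (h2' : ∀ u ∈ S, HasFDerivAt F1' (F2' u) u) (hinj : ∀ u ∈ S, Function.Injective (F1 u))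
    (heq : ∀ u ∈ S, ∀ a b, ⟪F1 u a, F1 u b⟫ = ⟪F1' u a, F1' u b⟫) {u v : V} (hu : u ∈ S)
    (hv : v ∈ S) : ‖F' u - F' v‖ = ‖F u - F v‖ := by
  have hunit : ∀ w ∈ S, IsUnit (F1 w) := by
    intro w hw
    rw [ContinuousLinearMap.isUnit_iff_bijective]
    exact ⟨hinj w hw, LinearMap.surjective_of_injective (f := (F1 w : V →ₗ[ℝ] V)) (hinj w hw)⟩
  set Q : V → V →L[ℝ] V := fun w => F1' w * Ring.inverse (F1 w) with hQ
  have hQF : ∀ w ∈ S, Q w * F1 w = F1' w := by
    intro w hw
    rw [hQ]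
    simp only
    rw [mul_assoc, Ring.inverse_mul_cancel _ (hunit w hw), mul_one]
  have hQd : ∀ w ∈ S, DifferentiableAt ℝ Q w := by
    intro w hw
    obtain ⟨x, hx⟩ := hunit w hw
    have h3 : DifferentiableAt ℝ (fun w => Ring.inverse (F1 w)) w := by
      have h4 : DifferentiableAt ℝ Ring.inverse (F1 w) := by
        rw [← hx]
        exact (hasFDerivAt_ringInverse (𝕜 := ℝ) x).differentiableAt
      exact h4.comp w (h2 w hw).differentiableAt
    exact (h2' w hw).differentiableAt.mul h3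
  have hQ0 : ∀ w ∈ S, fderiv ℝ Q w = 0 := by
    intro w hw
    have hd := (hQd w hw).hasFDerivAt.mul' (h2 w hw)
    have hev : (fun w => Q w * F1 w) =ᶠ[𝓝 w] F1' := by
      filter_upwards [hS.mem_nhds hw] with y hy using hQF y hy
    have hd2 := (h2' w hw).unique (hd.congr_of_eventuallyEq hev.symm)
    -- `Q F₂ = F₂'`
    have hQF2 : ∀ c, Q w * F2 w c = F2' w c := by
      intro c
      ext1 a
      have hb : ∀ b, ⟪F2' w c a - Q w (F2 w c a), F1' w b⟫ = 0 := by
        intro b
        have e1 := second_eq hS h1 h2 h1' h2' heq hw c a b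
        obtain ⟨z, hz⟩ := (ContinuousLinearMap.isUnit_iff_bijective.1 (hunit w hw)).2 (F2 w c a)
        have e2 : Q w (F2 w c a) = F1' w z := by
          rw [← hz, ← hQF w hw]; rfl
        rw [inner_sub_left, e2, ← heq w hw, hz, e1, sub_self]
      have hsurj : ∃ b, F1' w b = F2' w c a - Q w (F2 w c a) := by
        have hinj' : Function.Injective (F1' w) := by
          rw [injective_iff_map_eq_zero]
          intro y hy
          have h6 := heq w hw y y
          rw [hy, inner_zero_left, inner_self_eq_zero] at h6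
          exact (injective_iff_map_eq_zero _).1 (hinj w hw) y h6
        exact LinearMap.surjective_of_injective (f := (F1' w : V →ₗ[ℝ] V)) hinj' _
      obtain ⟨b, hb'⟩ := hsurj
      have h7 := hb b
      rw [hb', inner_self_eq_zero, sub_eq_zero] at h7
      exact h7.symm
    ext1 c
    have h8 := congrArg (fun L : V →L[ℝ] V →L[ℝ] V => L c) hd2
    have h9 : fderiv ℝ Q w c * F1 w = 0 := by
      have h10 : F2' w c = Q w * F2 w c + fderiv ℝ Q w c * F1 w := by
        rw [h8]
        rfl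
      rw [hQF2] at h10
      exact left_eq_add.1 h10
    obtain ⟨x, hx⟩ := hunit w hw
    rw [← hx] at h9
    have h11 := congrArg (fun L => L * (↑x⁻¹ : V →L[ℝ] V)) h9
    simp only [zero_mul] at h11
    rwa [Units.mul_inv_cancel_right] at h11
  have hconst : ∀ w ∈ S, Q w = Q v := fun w hw =>
    hS.is_const_of_fderiv_eq_zero (𝕜 := ℝ) hc (fun y hy => (hQd y hy).differentiableWithinAt)
      (fun y hy => hQ0 y hy) hw hv
  -- the map `F' - Q₀ F` is constant
  have hG : ∀ w ∈ S, HasFDerivAt (fun w => F' w - Q v (F w)) (0 : V →L[ℝ] V) w := by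
    intro w hw
    have h12 : HasFDerivAt (fun w => F' w - Q v (F w)) (F1' w - (Q v).comp (F1 w)) w :=
      (h1' w hw).sub ((Q v).hasFDerivAt.comp w (h1 w hw))
    have h13 : F1' w - (Q v).comp (F1 w) = 0 := by
      have h14 := hQF w hw
      rw [hconst w hw] at h14
      rw [← h14]
      exact sub_self _
    rw [h13] at h12
    exact h12
  have hGc := hS.is_const_of_fderiv_eq_zero (𝕜 := ℝ) hc
    (f := fun w => F' w - Q v (F w)) (fun y hy => (hG y hy).differentiableAt.differentiableWithinAt)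
    (fun y hy => (hG y hy).fderiv) hu hv
  have h15 : F' u - F' v = Q v (F u - F v) := by
    rw [map_sub]
    have h16 : F' u - Q v (F u) = F' v - Q v (F v) := hGc
    have h17 : F' u = F' v - Q v (F v) + Q v (F u) := by rw [← h16]; abel
    rw [h17]; abel
  rw [h15]
  obtain ⟨z, hz⟩ := (ContinuousLinearMap.isUnit_iff_bijective.1 (hunit v hv)).2 (F u - F v)
  have h18 : Q v (F u - F v) = F1' v z := by
    rw [← hz, ← hQF v hv]; rfl
  rw [h18, ← hz, @norm_eq_sqrt_real_inner V, @norm_eq_sqrt_real_inner V, heq v hv]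

end

end Vale.Agent.P207.N3.H662
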