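import Vale.Agent.P207.N3.H662.Bas
import Vale.Agent.P207.N3.H662.FDefs
import Vale.Agent.P207.N3.H662.Rigid

/-!
# P207, line N3, package P8: the rescaled coordinates, their bounds and their limits
-/

open Set Filter Topology Metric MeasureTheory
open scoped ContDiff

set_option linter.unusedSectionVars false

noncomputable section

namespace Vale.Agent.P207.N3.H662

/-! ### determinants in the plane -/

theorem det_smul2 (c : ℝ) (A : E2 →L[ℝ] E2) : (c • A).det = c ^ 2 * A.det := by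
  have h := LinearMap.det_smul c (A : E2 →ₗ[ℝ] E2)
  rw [finrank_euclideanSpace_fin] at h
  exact h

theorem det_comp2 (A A' : E2 →L[ℝ] E2) : (A.comp A').det = A.det * A'.det :=
  LinearMap.det_comp (A : E2 →ₗ[ℝ] E2) (A' : E2 →ₗ[ℝ] E2)

theorem abs_det_isom (O : E2 ≃ₗᵢ[ℝ] E2) :
    |((O.toContinuousLinearEquiv : E2 →L[ℝ] E2)).det| = 1 := by
  have h1 := Measure.addHaar_image_linearMap (volume : Measure E2)
    ((O.toContinuousLinearEquiv : E2 →L[ℝ] E2) : E2 →ₗ[ℝ] E2) (ball 0 1)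
  have h2 : (((O.toContinuousLinearEquiv : E2 →L[ℝ] E2) : E2 →ₗ[ℝ] E2) '' ball 0 1) =
      ball (0 : E2) 1 := by
    have h3 := O.image_ball 0 1
    rw [map_zero] at h3
    exact h3
  rw [h2] at h1
  have h4 : volume (ball (0 : E2) 1) ≠ 0 := (measure_ball_pos volume 0 one_pos).ne'
  have h5 : volume (ball (0 : E2) 1) ≠ ⊤ := measure_ball_lt_top.ne
  have h6 : ENNReal.ofReal |LinearMap.det ((O.toContinuousLinearEquiv : E2 →L[ℝ] E2) :
      E2 →ₗ[ℝ] E2)| = 1 := by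
    have h7 : 1 * volume (ball (0 : E2) 1) = ENNReal.ofReal |LinearMap.det
        ((O.toContinuousLinearEquiv : E2 →L[ℝ] E2) : E2 →ₗ[ℝ] E2)| * volume (ball (0 : E2) 1) := by
      rw [one_mul]; exact h1
    exact ((ENNReal.mul_left_inj h4 h5).1 h7).symm
  have h8 := congrArg ENNReal.toReal h6
  rw [ENNReal.toReal_ofReal (abs_nonneg _), ENNReal.toReal_one] at h8
  exact h8

/-- conformal factor and determinant -/
theorem norm_sq_eq {A M : E2 →L[ℝ] E2} {c : ℝ} {O : E2 ≃ₗᵢ[ℝ] E2}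
    (h : ∀ v, A v = c • O (M v)) (v : E2) : ‖A v‖ ^ 2 * |M.det| = |A.det| * ‖M v‖ ^ 2 := by
  have h1 : A = c • ((O.toContinuousLinearEquiv : E2 →L[ℝ] E2).comp M) := by
    ext1 v
    rw [h v]
    rfl
  have h2 : |A.det| = c ^ 2 * |M.det| := by
    rw [h1, det_smul2, det_comp2, abs_mul, abs_mul, abs_det_isom, one_mul, abs_of_nonneg (sq_nonneg c)]
  rw [h2, h v, norm_smul, LinearIsometryEquiv.norm_map, mul_pow, Real.norm_eq_abs, sq_abs]
  ring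

variable {Γ X B : Type} [Group Γ] [MetricSpace X] [ProperSpace X] [MulAction Γ X]
  [IsIsometricSMul Γ X] [TopologicalSpace B] [CompactSpace B] [T2Space B] [MulAction Γ B]
  [ContinuousConstSMul Γ B] [MeasurableSpace B] [BorelSpace B] {L : Leaf Γ X B} {A : Area L}

namespace CaseI

variable (I : CaseI L A)

/-- the rescaled coordinate in the chart of the frame `y` -/
def F (y : X) (u : E2) : E2 :=
  Real.exp (A.h * L.lv y / 2) • (I.f (L.e y u) - I.f (L.ep y))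

/-- its derivative -/
def F1 (y : X) (u : E2) : E2 →L[ℝ] E2 := fderiv ℝ (I.F y) u

/-- its second derivative -/
def F2 (y : X) (u : E2) : E2 →L[ℝ] E2 →L[ℝ] E2 := fderiv ℝ (I.F1 y) u

theorem F_smooth {y : X} (hy : L.em y = I.ξ) : ContDiffOn ℝ ∞ (I.F y) (ball 0 3) :=
  ((I.f_smooth y hy).sub contDiffOn_const).const_smul _

theorem F_smoothAt {y : X} (hy : L.em y = I.ξ) {u : E2} (hu : u ∈ ball (0 : E2) 3) :
    ContDiffAt ℝ ∞ (I.F y) u := (I.F_smooth hy).contDiffAt (isOpen_ball.mem_nhds hu)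

theorem hasF1 {y : X} (hy : L.em y = I.ξ) {u : E2} (hu : u ∈ ball (0 : E2) 3) :
    HasFDerivAt (I.F y) (I.F1 y u) u :=
  ((I.F_smoothAt hy hu).differentiableAt (by simp)).hasFDerivAt

theorem hasF2 {y : X} (hy : L.em y = I.ξ) {u : E2} (hu : u ∈ ball (0 : E2) 3) :
    HasFDerivAt (I.F1 y) (I.F2 y u) u := by
  have h1 : ContDiffAt ℝ 1 (I.F1 y) u :=
    (I.F_smoothAt hy hu).fderiv_right (m := 1) (by norm_cast)
  exact (h1.differentiableAt (by simp)).hasFDerivAt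

theorem F1_eq {y : X} (hy : L.em y = I.ξ) {u : E2} (hu : u ∈ ball (0 : E2) 3) :
    I.F1 y u = Real.exp (A.h * L.lv y / 2) • fderiv ℝ (fun u => I.f (L.e y u)) u := by
  have h1 : DifferentiableAt ℝ (fun u => I.f (L.e y u)) u :=
    ((I.f_smooth y hy).contDiffAt (isOpen_ball.mem_nhds hu)).differentiableAt (by simp)
  have h2 : HasFDerivAt (I.F y)
      (Real.exp (A.h * L.lv y / 2) • fderiv ℝ (fun u => I.f (L.e y u)) u) u :=
    (h1.hasFDerivAt.sub_const (I.f (L.ep y))).const_smul (Real.exp (A.h * L.lv y / 2))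
  exact h2.fderiv

theorem F1_det {y : X} (hy : L.em y = I.ξ) {u : E2} (hu : u ∈ ball (0 : E2) 3) :
    |(I.F1 y u).det| = I.c₀ * A.s y u := by
  rw [I.F1_eq hy hu, det_smul2, abs_mul, I.f_det y hy u hu, abs_of_nonneg (sq_nonneg _),
    ← Real.exp_nat_mul]
  have h1 : ((2 : ℕ) : ℝ) * (A.h * L.lv y / 2) = A.h * L.lv y := by push_cast; ring
  have h2 : Real.exp (A.h * L.lv y) * Real.exp (-A.h * L.lv y) = 1 := by
    rw [← Real.exp_add]; simp
  rw [h1]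
  calc Real.exp (A.h * L.lv y) * (I.c₀ * Real.exp (-A.h * L.lv y) * A.s y u)
      = (Real.exp (A.h * L.lv y) * Real.exp (-A.h * L.lv y)) * (I.c₀ * A.s y u) := by ring
    _ = _ := by rw [h2, one_mul]

/-- uniform bounds of the derivatives of order one, two, three -/
structure Bdd (C : ℝ) : Prop where
  pos : 0 ≤ C
  b1 : ∀ y, L.em y = I.ξ → ∀ u ∈ ball (0 : E2) 2, ‖I.F1 y u‖ ≤ C
  b2 : ∀ y, L.em y = I.ξ → ∀ u ∈ ball (0 : E2) 2, ‖I.F2 y u‖ ≤ C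
  b3 : ∀ y, L.em y = I.ξ → ∀ u ∈ ball (0 : E2) 2, ∀ v ∈ ball (0 : E2) 2,
    ‖I.F2 y u - I.F2 y v‖ ≤ C * ‖u - v‖

variable {I} {C : ℝ}

theorem two3 : ball (0 : E2) 2 ⊆ ball (0 : E2) 3 := ball_subset_ball (by norm_num)

theorem Bdd.lipF (hB : I.Bdd C) {y : X} (hy : L.em y = I.ξ) {u v : E2} (hu : u ∈ ball (0 : E2) 2)
    (hv : v ∈ ball (0 : E2) 2) : ‖I.F y u - I.F y v‖ ≤ C * ‖u - v‖ :=
  lip_of (convex_ball _ _) (fun _ hu => I.hasF1 hy (two3 hu)) (hB.b1 y hy) hu hv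

theorem Bdd.lipF1 (hB : I.Bdd C) {y : X} (hy : L.em y = I.ξ) {u v : E2}
    (hu : u ∈ ball (0 : E2) 2) (hv : v ∈ ball (0 : E2) 2) :
    ‖I.F1 y u - I.F1 y v‖ ≤ C * ‖u - v‖ :=
  lip_of (convex_ball _ _) (fun _ hu => I.hasF2 hy (two3 hu)) (hB.b2 y hy) hu hv

theorem F_zero (y : X) : I.F y 0 = 0 := by
  rw [F, L.e_zero, sub_self, smul_zero]

/-! ### the distances of the leaves of the orbit of `ξ` -/

variable (I)

/-- the global rescaled coordinate of a pair -/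
def Zp (p : Pt L I.ξ) (η : B) : E2 :=
  Real.exp (A.h * L.lv p.y / 2) • (I.f (p.g⁻¹ • η) - I.f (L.ep p.y))

/-- the rescaled distance of a pair -/
def δ (p : Pt L I.ξ) (η η' : B) : ℝ :=
  Real.exp (A.h * L.lv p.y / 2) * ‖I.f (p.g⁻¹ • η) - I.f (p.g⁻¹ • η')‖

theorem norm_Zp_sub (p : Pt L I.ξ) (η η' : B) : ‖I.Zp p η - I.Zp p η'‖ = I.δ p η η' := by
  rw [Zp, Zp, ← smul_sub, sub_sub_sub_cancel_right, norm_smul, Real.norm_eq_abs,
    abs_of_pos (Real.exp_pos _), δ]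

theorem Zp_e (p : Pt L I.ξ) {u : E2} (hu : u ∈ closedBall (0 : E2) 3) :
    I.Zp p (L.e p.w u) = I.F p.y u := by
  rw [Zp, F]
  have h1 : L.e p.y u = p.g⁻¹ • L.e p.w u := L.e_smul _ _ _ hu
  rw [h1]

theorem Zp_ep (p : Pt L I.ξ) : I.Zp p (L.ep p.w) = 0 := by
  have h1 : L.ep p.y = p.g⁻¹ • L.ep p.w := L.ep_smul _ _
  rw [Zp, h1, sub_self, smul_zero]

theorem δ_e (p : Pt L I.ξ) {u v : E2} (hu : u ∈ closedBall (0 : E2) 3)
    (hv : v ∈ closedBall (0 : E2) 3) :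
    I.δ p (L.e p.w u) (L.e p.w v) = ‖I.F p.y u - I.F p.y v‖ := by
  rw [← I.norm_Zp_sub, I.Zp_e p hu, I.Zp_e p hv]

/-- the flow on pairs -/
def sh (S : ℝ) {ξ : B} (p : Pt L ξ) : Pt L ξ :=
  ⟨p.g, L.φ S p.w, by rw [L.em_φ]; exact p.em_w⟩

theorem sh_w (S : ℝ) {ξ : B} (p : Pt L ξ) : (sh S p).w = L.φ S p.w := rfl

theorem sh_y (S : ℝ) {ξ : B} (p : Pt L ξ) : (sh S p).y = L.φ S p.y :=
  (L.φ_smul _ _ _).symm

theorem δ_sh (S : ℝ) (p : Pt L I.ξ) (η η' : B) :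
    I.δ (sh S p) η η' = Real.exp (A.h * S / 2) * I.δ p η η' := by
  have h1 : (sh S p).g = p.g := rfl
  rw [δ, δ, sh_y, L.lv_φ, h1, ← mul_assoc, ← Real.exp_add]
  congr 3
  ring

theorem sh_tendsto (S : ℝ) (ξ : B) (w : X) :
    Tendsto (sh S) (Fw L ξ w) (Fw L ξ (L.φ S w)) := by
  refine tendsto_comap_iff.2 ?_
  exact ((L.φ_cont' S).tendsto w).comp (tendsto_w L ξ w)

variable {I}

/-- lower bound of `s` on the disc of radius one -/
theorem s_low (A : Area L) : ∃ m : ℝ, 0 < m ∧ ∀ x : X, ∀ u ∈ closedBall (0 : E2) 1, m ≤ A.s x u :=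
  Leaf.s_lower A

/-- separation -/
theorem Bdd.sep (hB : I.Bdd C) {r : ℝ} (hr : 0 < r) (hr1 : r ≤ 1) : ∃ c : ℝ, 0 < c ∧
    ∀ p : Pt L I.ξ, ∀ u ∈ closedBall (0 : E2) 1, ∀ η', η' ≠ L.em p.w →
      η' ∉ L.e p.w '' ball u r → c ≤ I.δ p (L.e p.w u) η' := by
  obtain ⟨m, hm, hs⟩ := s_low A
  obtain ⟨c, hc, hsurj⟩ := exists_surj C (I.c₀ * m) r hB.pos (mul_pos I.c₀_pos hm) hr
  refine ⟨c, hc, fun p u hu η' hη hn => ?_⟩
  by_contra hlt
  push Not at hlt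
  have hub : ball u r ⊆ ball (0 : E2) 2 := by
    intro v hv
    rw [mem_ball, dist_zero_right]
    rw [mem_ball, dist_eq_norm] at hv
    rw [mem_closedBall, dist_zero_right] at hu
    calc ‖v‖ = ‖(v - u) + u‖ := by rw [sub_add_cancel]
      _ ≤ ‖v - u‖ + ‖u‖ := norm_add_le _ _
      _ < 2 := by linarith
  have hu2 : u ∈ ball (0 : E2) 2 := hub (mem_ball_self hr)
  have hu3 : u ∈ closedBall (0 : E2) 3 := ball_subset_closedBall (two3 hu2)
  have h1 := hsurj (I.F p.y) (I.F1 p.y) u (fun v hv => I.hasF1 p.em_y (two3 (hub hv)))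
    (fun v hv w hw => hB.lipF1 p.em_y (hub hv) (hub hw)) (hB.b1 p.y p.em_y u hu2) (by
      rw [I.F1_det p.em_y (two3 hu2)]
      have := hs p.y u hu
      have := I.c₀_pos
      gcongr)
  have h2 : I.Zp p η' ∈ closedBall (I.F p.y u) c := by
    rw [mem_closedBall, dist_eq_norm, ← I.Zp_e p hu3, norm_sub_rev, I.norm_Zp_sub]
    exact hlt.le
  obtain ⟨v, hv, hve⟩ := h1 h2
  rw [← I.Zp_e p (ball_subset_closedBall (two3 (hub hv)))] at hve
  -- injectivity of `f`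
  have h3 : I.f (p.g⁻¹ • L.e p.w v) = I.f (p.g⁻¹ • η') := by
    have h4 := smul_right_injective E2 (Real.exp_pos (A.h * L.lv p.y / 2)).ne' hve
    exact sub_left_injective h4
  have h5 : ∀ b : B, b ≠ L.em p.w → p.g⁻¹ • b ∈ ({I.ξ} : Set B)ᶜ := by
    intro b hb hcon
    apply hb
    rw [mem_singleton_iff] at hcon
    rw [p.em_w]
    exact inv_smul_eq_iff.1 hcon
  have h6 := I.f_bij.injOn (h5 _ (L.e_ne _ v (ball_subset_closedBall (two3 (hub hv)))))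
    (h5 _ hη) h3
  have h7 : L.e p.w v = η' := smul_left_cancel _ h6
  exact hn ⟨v, hv, h7⟩

/-! ### limit maps -/

/-- `F` is the limit of the rescaled coordinates along the ultrafilter -/
structure IsLimMap (I : CaseI L A) (𝒰 : Filter (Pt L I.ξ)) (w : X) (G : E2 → E2)
    (G1 : E2 → E2 →L[ℝ] E2) (G2 : E2 → E2 →L[ℝ] E2 →L[ℝ] E2) : Prop where
  tF : ∀ u ∈ ball (0 : E2) 2, Tendsto (fun p : Pt L I.ξ => I.F p.y u) 𝒰 (𝓝 (G u))
  tF1 : ∀ u ∈ ball (0 : E2) 2, Tendsto (fun p : Pt L I.ξ => I.F1 p.y u) 𝒰 (𝓝 (G1 u))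
  dF : ∀ u ∈ ball (0 : E2) 2, HasFDerivAt G (G1 u) u
  dF1 : ∀ u ∈ ball (0 : E2) 2, HasFDerivAt G1 (G2 u) u
  det : ∀ u ∈ ball (0 : E2) 2, |(G1 u).det| = I.c₀ * A.s w u

theorem s_pair {ξ : B} (p : Pt L ξ) {u : E2} (hu : u ∈ ball (0 : E2) 3) :
    A.s p.y u = A.s p.w u := A.s_smul _ _ _ hu

theorem Bdd.exists_lim (hB : I.Bdd C) {w : X} (𝒰 : Ultrafilter (Pt L I.ξ))
    (h𝒰 : (𝒰 : Filter (Pt L I.ξ)) ≤ Fw L I.ξ w) : ∃ G G1 G2, IsLimMap I 𝒰 w G G1 G2 := by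
  have hF : ∀ u, ∃ v, u ∈ ball (0 : E2) 2 →
      Tendsto (fun p : Pt L I.ξ => I.F p.y u) (𝒰 : Filter (Pt L I.ξ)) (𝓝 v) := by
    intro u
    by_cases hu : u ∈ ball (0 : E2) 2
    · obtain ⟨v, hv⟩ := exists_ulim 𝒰 (g := fun p : Pt L I.ξ => I.F p.y u) (C := C * ‖u‖)
        (Eventually.of_forall fun p => by
          have := hB.lipF p.em_y hu (mem_ball_self (by norm_num : (0 : ℝ) < 2))
          rwa [F_zero, sub_zero, sub_zero] at this)
      exact ⟨v, fun _ => hv⟩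
    · exact ⟨0, fun h => absurd h hu⟩
  have hF1 : ∀ u, ∃ v, u ∈ ball (0 : E2) 2 →
      Tendsto (fun p : Pt L I.ξ => I.F1 p.y u) (𝒰 : Filter (Pt L I.ξ)) (𝓝 v) := by
    intro u
    by_cases hu : u ∈ ball (0 : E2) 2
    · obtain ⟨v, hv⟩ := exists_ulim 𝒰 (g := fun p : Pt L I.ξ => I.F1 p.y u) (C := C)
        (Eventually.of_forall fun p => hB.b1 p.y p.em_y u hu)
      exact ⟨v, fun _ => hv⟩
    · exact ⟨0, fun h => absurd h hu⟩
  have hF2 : ∀ u, ∃ v, u ∈ ball (0 : E2) 2 →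
      Tendsto (fun p : Pt L I.ξ => I.F2 p.y u) (𝒰 : Filter (Pt L I.ξ)) (𝓝 v) := by
    intro u
    by_cases hu : u ∈ ball (0 : E2) 2
    · obtain ⟨v, hv⟩ := exists_ulim 𝒰 (g := fun p : Pt L I.ξ => I.F2 p.y u) (C := C)
        (Eventually.of_forall fun p => hB.b2 p.y p.em_y u hu)
      exact ⟨v, fun _ => hv⟩
    · exact ⟨0, fun h => absurd h hu⟩
  choose G hG using hF
  choose G1 hG1 using hF1
  choose G2 hG2 using hF2
  refine ⟨G, G1, G2, hG, hG1, fun u hu => ?_, fun u hu => ?_, fun u hu => ?_⟩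
  · exact hasFDerivAt_lim isOpen_ball (convex_ball (0 : E2) 2) (l := (𝒰 : Filter (Pt L I.ξ)))
      (G := fun p => I.F p.y) (G1 := fun p => I.F1 p.y) hB.pos
      (Eventually.of_forall fun p u hu => I.hasF1 p.em_y (two3 hu))
      (Eventually.of_forall fun p u hu v hv => hB.lipF1 p.em_y hu hv) hG hG1 hu
  · exact hasFDerivAt_lim isOpen_ball (convex_ball (0 : E2) 2) (l := (𝒰 : Filter (Pt L I.ξ)))
      (G := fun p => I.F1 p.y) (G1 := fun p => I.F2 p.y) hB.pos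
      (Eventually.of_forall fun p u hu => I.hasF2 p.em_y (two3 hu))
      (Eventually.of_forall fun p u hu v hv => hB.b3 p.y p.em_y u hu v hv) hG1 hG2 hu
  · have hw : Tendsto Pt.w (𝒰 : Filter (Pt L I.ξ)) (𝓝 w) := (tendsto_w L I.ξ w).mono_left h𝒰
    have h1 : Tendsto (fun p : Pt L I.ξ => |(I.F1 p.y u).det|) (𝒰 : Filter (Pt L I.ξ))
        (𝓝 |(G1 u).det|) :=
      ((ContinuousLinearMap.continuous_det.tendsto _).comp (hG1 u hu)).abs
    have h2 : Tendsto (fun p : Pt L I.ξ => I.c₀ * A.s p.w u) (𝒰 : Filter (Pt L I.ξ))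
        (𝓝 (I.c₀ * A.s w u)) :=
      (s_tendsto A hw tendsto_const_nhds (two3 hu)).const_mul _
    refine tendsto_nhds_unique h1 (h2.congr fun p => ?_)
    rw [I.F1_det p.em_y (two3 hu), s_pair p (two3 hu)]

end CaseI

end Vale.Agent.P207.N3.H662
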