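import Vale.Agent.P207.N3.H662.Core

/-!
# P207, line N3, package P8: the limit distance does not depend on the approximation
-/

open Set Filter Topology Metric MeasureTheory
open scoped ContDiff RealInnerProductSpace

set_option linter.unusedSectionVars false

noncomputable section

namespace Vale.Agent.P207.N3.H662

variable {Γ X B : Type} [Group Γ] [MetricSpace X] [ProperSpace X] [MulAction Γ X]
  [IsIsometricSMul Γ X] [TopologicalSpace B] [CompactSpace B] [T2Space B] [MulAction Γ B]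
  [ContinuousConstSMul Γ B] [MeasurableSpace B] [BorelSpace B] {L : Leaf Γ X B} {A : Area L}

theorem tau_smul (g : Γ) {x y : X} {u : E2} (hu : u ∈ L.dm x y) :
    L.τ (g • x) (g • y) u = L.τ x y u := by
  rw [L.tau_eq, L.tau_eq, L.e_smul g x u (ball_subset_closedBall hu.1),
    L.inv_smul g (image_mono ball_subset_closedBall hu.2)]

theorem dm_smul (g : Γ) {x y : X} {u : E2} (hu : u ∈ L.dm x y) : u ∈ L.dm (g • x) (g • y) := by
  refine ⟨hu.1, ?_⟩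
  obtain ⟨v, hv, hve⟩ := hu.2
  refine ⟨v, hv, ?_⟩
  rw [L.e_smul g y v (ball_subset_closedBall hv), hve, L.e_smul g x u (ball_subset_closedBall hu.1)]

theorem fderiv_tau_smul (g : Γ) {x y : X} {u : E2} (hu : u ∈ L.dm x y) :
    fderiv ℝ (L.τ (g • x) (g • y)) u = fderiv ℝ (L.τ x y) u := by
  refine Filter.EventuallyEq.fderiv_eq ?_
  filter_upwards [(dm_open L x y).mem_nhds hu] with v hv using tau_smul g hv

namespace CaseI

variable (I : CaseI L A)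

/-- the derivative at a point of the orbit of `η₀` -/
theorem orb_formula (p : Pt L I.ξ) {k : Γ} {z : X} (hz : L.em z = L.em p.w)
    (hz' : L.ep z = k • I.η₀) {u : E2} (hu : u ∈ ball (0 : E2) 3) (hue : L.e p.w u = k • I.η₀)
    (v : E2) :
    ‖I.F1 p.y u v‖ ^ 2 * |((I.G (k⁻¹ • z)).comp (fderiv ℝ (L.τ p.w z) u)).det| =
      I.c₀ * A.s p.w u * ‖I.G (k⁻¹ • z) (fderiv ℝ (L.τ p.w z) u v)‖ ^ 2 := by
  have hdm : u ∈ L.dm p.w z := ⟨hu, 0, by simp, by rw [hue, ← hz', L.e_zero]⟩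
  have hτ0 : L.τ p.w z u = 0 := by
    rw [L.tau_eq, hue, ← hz', ← L.e_zero z, L.inv_e (by simp)]
  have hdm' : u ∈ L.dm p.y (p.g⁻¹ • z) := dm_smul p.g⁻¹ hdm
  have hemz : L.em (p.g⁻¹ • z) = I.ξ := by
    rw [L.em_smul, hz, p.em_w, inv_smul_smul]
  have h1 := fderiv_chain L I.f_smooth p.em_y hemz hdm'
  have h2 : fderiv ℝ (L.τ p.y (p.g⁻¹ • z)) u = fderiv ℝ (L.τ p.w z) u :=
    fderiv_tau_smul p.g⁻¹ hdm
  have h3 : L.τ p.y (p.g⁻¹ • z) u = 0 := by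
    have := tau_smul p.g⁻¹ hdm
    rw [hτ0] at this
    exact this
  rw [h2, h3] at h1
  have hepz : L.ep (k⁻¹ • z) = I.η₀ := by
    rw [L.ep_smul, hz', inv_smul_smul]
  have hk : (p.g⁻¹ * k) • k⁻¹ • z = p.g⁻¹ • z := by
    rw [mul_smul, smul_inv_smul]
  obtain ⟨c, O, -, hc⟩ := I.conf (k⁻¹ • z) (p.g⁻¹ * k) hepz (by rw [hk, hemz])
  rw [hk] at hc
  have h4 : ∀ v, I.F1 p.y u v = (Real.exp (A.h * L.lv p.y / 2) * c) •
      O (((I.G (k⁻¹ • z)).comp (fderiv ℝ (L.τ p.w z) u)) v) := by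
    intro v
    rw [I.F1_eq p.em_y hu, h1]
    change Real.exp (A.h * L.lv p.y / 2) • (fderiv ℝ (fun u => I.f (L.e (p.g⁻¹ • z) u)) 0
      (fderiv ℝ (L.τ p.w z) u v)) = _
    rw [hc, smul_smul]
    rfl
  have h5 := norm_sq_eq h4 v
  rw [I.F1_det p.em_y hu, s_pair p hu] at h5
  exact h5

variable {I} {C : ℝ}

/-- the derivative of a limit map at a point of the orbit of `η₀` -/
theorem lim_formula (hB : I.Bdd C) {w : X} {𝒰 : Filter (Pt L I.ξ)} [𝒰.NeBot]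
    (h𝒰 : 𝒰 ≤ Fw L I.ξ w) {G : E2 → E2} {G1 : E2 → E2 →L[ℝ] E2}
    {G2 : E2 → E2 →L[ℝ] E2 →L[ℝ] E2} (hG : IsLimMap I 𝒰 w G G1 G2) {u : E2}
    (hu : u ∈ ball (0 : E2) 2) {k : Γ} (hue : L.e w u = k • I.η₀) {z : X} (hz : L.em z = L.em w)
    (hz' : L.ep z = k • I.η₀) (v : E2) :
    ‖G1 u v‖ ^ 2 * |((I.G (k⁻¹ • z)).comp (fderiv ℝ (L.τ w z) u)).det| =
      I.c₀ * A.s w u * ‖I.G (k⁻¹ • z) (fderiv ℝ (L.τ w z) u v)‖ ^ 2 := by
  have hw : Tendsto Pt.w 𝒰 (𝓝 w) := (tendsto_w L I.ξ w).mono_left h𝒰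
  have hu3 : u ∈ ball (0 : E2) 3 := two3 hu
  have hne : L.em w ≠ L.ep z := by rw [← hz]; exact L.em_ne_ep z
  -- the approximating frames
  have hopen : IsOpen {p : B × X | p.1 ≠ L.ep p.2} := by
    have : IsClosed {p : B × X | p.1 = L.ep p.2} :=
      isClosed_eq continuous_fst (L.ep_cont.comp continuous_snd)
    exact this.isOpen_compl
  have hzp : Tendsto (fun p : Pt L I.ξ => L.hol (L.em p.w) z) 𝒰 (𝓝 z) := by
    have h1 : ContinuousAt (fun p : B × X => L.hol p.1 p.2) (L.em w, z) :=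
      L.hol_cont.continuousAt (hopen.mem_nhds hne)
    have h2 : Tendsto (fun p : Pt L I.ξ => (L.em p.w, z)) 𝒰 (𝓝 (L.em w, z)) :=
      ((L.em_cont.tendsto w).comp hw).prodMk_nhds tendsto_const_nhds
    have h3 := h1.tendsto.comp h2
    have h4 : L.hol (L.em w) z = z := by rw [← hz]; exact L.hol_self z
    simp only [h4] at h3
    exact h3
  have hnep : ∀ᶠ p : Pt L I.ξ in 𝒰, L.em p.w ≠ L.ep z :=
    ((L.em_cont.tendsto w).comp hw) (isOpen_ne.mem_nhds hne)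
  -- the approximating points
  have hinv := L.inv_tendsto hw (b := fun _ => k • I.η₀) (u₀ := u) (by
    rw [hue]; exact tendsto_const_nhds) hu3
  set up : Pt L I.ξ → E2 := fun p => L.inv p.w (k • I.η₀) with hup
  have hup3 : ∀ᶠ p : Pt L I.ξ in 𝒰, up p ∈ ball (0 : E2) 3 ∧ L.e p.w (up p) = k • I.η₀ := by
    filter_upwards [hinv.1] with p hp
    exact ⟨L.inv_mem_ball le_rfl hp, L.e_inv (image_mono ball_subset_closedBall hp)⟩
  have hdm : ∀ᶠ p : Pt L I.ξ in 𝒰, up p ∈ L.dm p.w (L.hol (L.em p.w) z) := by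
    filter_upwards [hup3, hnep] with p h1 h2
    refine ⟨h1.1, 0, by simp, ?_⟩
    rw [h1.2, L.e_zero, L.hol_ep _ _ h2, hz']
  have hdm0 : u ∈ L.dm w z := ⟨hu3, 0, by simp, by rw [hue, ← hz', L.e_zero]⟩
  -- convergence of all quantities
  have t1 : Tendsto (fun p : Pt L I.ξ => I.F1 p.y (up p)) 𝒰 (𝓝 (G1 u)) :=
    tendsto_moving isOpen_ball (G := fun p : Pt L I.ξ => I.F1 p.y)
      (Eventually.of_forall fun p x hx y hy => hB.lipF1 p.em_y hx hy) hu (hG.tF1 u hu) hinv.2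
  have t2 : Tendsto (fun p : Pt L I.ξ => fderiv ℝ (L.τ p.w (L.hol (L.em p.w) z)) (up p)) 𝒰
      (𝓝 (fderiv ℝ (L.τ w z) u)) := by
    refine fderiv_tau_tendsto L ?_ hdm hz.symm hdm0 hw hzp hinv.2
    filter_upwards [hnep] with p hp
    rw [L.hol_em _ _ hp]
  have t3 : Tendsto (fun p : Pt L I.ξ => I.G (k⁻¹ • L.hol (L.em p.w) z)) 𝒰
      (𝓝 (I.G (k⁻¹ • z))) := by
    have h1 := I.G_cont (k⁻¹ • z) (by
      change L.ep _ = _
      rw [L.ep_smul, hz', inv_smul_smul])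
    have h2 : Tendsto (fun p : Pt L I.ξ => k⁻¹ • L.hol (L.em p.w) z) 𝒰
        (𝓝[{y | L.ep y = I.η₀}] (k⁻¹ • z)) := by
      refine tendsto_nhdsWithin_iff.2 ⟨hzp.const_smul _, ?_⟩
      filter_upwards [hnep] with p hp
      change L.ep _ = _
      rw [L.ep_smul, L.hol_ep _ _ hp, hz', inv_smul_smul]
    exact h1.tendsto.comp h2
  have t4 : Tendsto (fun p : Pt L I.ξ => A.s p.w (up p)) 𝒰 (𝓝 (A.s w u)) :=
    s_tendsto A hw hinv.2 hu3
  -- both sides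
  have l1 : Tendsto (fun p : Pt L I.ξ => ‖I.F1 p.y (up p) v‖ ^ 2 *
      |((I.G (k⁻¹ • L.hol (L.em p.w) z)).comp
        (fderiv ℝ (L.τ p.w (L.hol (L.em p.w) z)) (up p))).det|) 𝒰
      (𝓝 (‖G1 u v‖ ^ 2 * |((I.G (k⁻¹ • z)).comp (fderiv ℝ (L.τ w z) u)).det|)) := by
    have h1 : Tendsto (fun p : Pt L I.ξ => I.F1 p.y (up p) v) 𝒰 (𝓝 (G1 u v)) :=
      ((ContinuousLinearMap.apply ℝ E2 v).continuous.tendsto _).comp t1
    have h2 : Tendsto (fun p : Pt L I.ξ => (I.G (k⁻¹ • L.hol (L.em p.w) z)).comp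
        (fderiv ℝ (L.τ p.w (L.hol (L.em p.w) z)) (up p))) 𝒰
        (𝓝 ((I.G (k⁻¹ • z)).comp (fderiv ℝ (L.τ w z) u))) := by
      have hc : Continuous fun q : (E2 →L[ℝ] E2) × (E2 →L[ℝ] E2) => q.1.comp q.2 :=
        continuous_fst.clm_comp continuous_snd
      exact (hc.tendsto _).comp (t3.prodMk_nhds t2)
    exact (h1.norm.pow 2).mul ((ContinuousLinearMap.continuous_det.tendsto _).comp h2).abs
  have l2 : Tendsto (fun p : Pt L I.ξ => I.c₀ * A.s p.w (up p) *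
      ‖I.G (k⁻¹ • L.hol (L.em p.w) z)
        (fderiv ℝ (L.τ p.w (L.hol (L.em p.w) z)) (up p) v)‖ ^ 2) 𝒰
      (𝓝 (I.c₀ * A.s w u * ‖I.G (k⁻¹ • z) (fderiv ℝ (L.τ w z) u v)‖ ^ 2)) := by
    have h1 : Tendsto (fun p : Pt L I.ξ =>
        fderiv ℝ (L.τ p.w (L.hol (L.em p.w) z)) (up p) v) 𝒰 (𝓝 (fderiv ℝ (L.τ w z) u v)) :=
      ((ContinuousLinearMap.apply ℝ E2 v).continuous.tendsto _).comp t2
    have hc : Continuous fun q : (E2 →L[ℝ] E2) × E2 => q.1 q.2 := by fun_prop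
    exact (t4.const_mul _).mul (((hc.tendsto _).comp (t3.prodMk_nhds h1)).norm.pow 2)
  refine tendsto_nhds_unique (l1.congr' ?_) l2
  filter_upwards [hup3, hnep] with p h1 h2
  exact I.orb_formula p (L.hol_em _ _ h2) (by rw [L.hol_ep _ _ h2, hz']) h1.1 h1.2 v

/-- the pulled back metric of a limit map is unique -/
theorem norm_eq (hB : I.Bdd C) {w : X} {𝒰 𝒰' : Filter (Pt L I.ξ)} [𝒰.NeBot] [𝒰'.NeBot]
    (h𝒰 : 𝒰 ≤ Fw L I.ξ w) (h𝒰' : 𝒰' ≤ Fw L I.ξ w) {G G' : E2 → E2}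
    {G1 G1' : E2 → E2 →L[ℝ] E2} {G2 G2' : E2 → E2 →L[ℝ] E2 →L[ℝ] E2}
    (hG : IsLimMap I 𝒰 w G G1 G2) (hG' : IsLimMap I 𝒰' w G' G1' G2') {u : E2}
    (hu : u ∈ ball (0 : E2) 2) (v : E2) : ‖G1 u v‖ = ‖G1' u v‖ := by
  by_contra hne
  have c1 : ContinuousAt (fun u => ‖G1 u v‖) u := by
    have h1 := ((hG.dF1 u hu).continuousAt)
    exact (((ContinuousLinearMap.apply ℝ E2 v).continuous.continuousAt).comp h1).norm
  have c2 : ContinuousAt (fun u => ‖G1' u v‖) u := by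
    have h1 := ((hG'.dF1 u hu).continuousAt)
    exact (((ContinuousLinearMap.apply ℝ E2 v).continuous.continuousAt).comp h1).norm
  have hev : ∀ᶠ x in 𝓝 u, ‖G1 x v‖ ≠ ‖G1' x v‖ ∧ x ∈ ball (0 : E2) 2 :=
    (c1.ne_iff_eventually_ne c2 |>.1 hne).and (isOpen_ball.mem_nhds hu)
  obtain ⟨k, x, ⟨hx1, hx2⟩, hx3, hxe⟩ := exists_orbit_near L w (two3 hu) I.η₀ hev
  obtain ⟨z, hz1, hz2, -⟩ := L.exists_frame (L.em w) (k • I.η₀) (by
    rw [← hxe]; exact (L.e_ne w x (ball_subset_closedBall hx3)).symm) 0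
  have e1 := lim_formula hB h𝒰 hG hx2 hxe hz1 hz2 v
  have e2 := lim_formula hB h𝒰' hG' hx2 hxe hz1 hz2 v
  have hdm : x ∈ L.dm w z := ⟨hx3, 0, by simp, by rw [hxe, ← hz2, L.e_zero]⟩
  have hdet : |((I.G (k⁻¹ • z)).comp (fderiv ℝ (L.τ w z) x)).det| ≠ 0 := by
    rw [det_comp2]
    refine abs_ne_zero.2 (mul_ne_zero (I.G_det _ ?_) (det_tau_ne A hz1.symm hdm))
    rw [L.ep_smul, hz2, inv_smul_smul]
  have e3 : ‖G1 x v‖ ^ 2 = ‖G1' x v‖ ^ 2 := mul_right_cancel₀ hdet (e1.trans e2.symm)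
  exact hx1 ((pow_left_inj₀ (norm_nonneg _) (norm_nonneg _) two_ne_zero).1 e3)

theorem IsLimMap.inj {𝒰 : Filter (Pt L I.ξ)} {w : X} {G : E2 → E2} {G1 : E2 → E2 →L[ℝ] E2}
    {G2 : E2 → E2 →L[ℝ] E2 →L[ℝ] E2} (hG : IsLimMap I 𝒰 w G G1 G2) {u : E2}
    (hu : u ∈ ball (0 : E2) 2) : Function.Injective (G1 u) := by
  have h1 : (G1 u).det ≠ 0 := by
    intro h0
    have h2 := hG.det u hu
    rw [h0, abs_zero] at h2
    exact absurd h2 (mul_pos I.c₀_pos (A.s_pos w u (two3 hu))).ne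
  have h2 := ((G1 u).toContinuousLinearEquivOfDetNeZero h1).injective
  intro a b hab
  apply h2
  rw [ContinuousLinearMap.toContinuousLinearEquivOfDetNeZero_apply,
    ContinuousLinearMap.toContinuousLinearEquivOfDetNeZero_apply, hab]

/-- the limit distances in the chart are unique -/
theorem dist_eq' (hB : I.Bdd C) {w : X} {𝒰 𝒰' : Filter (Pt L I.ξ)} [𝒰.NeBot] [𝒰'.NeBot]
    (h𝒰 : 𝒰 ≤ Fw L I.ξ w) (h𝒰' : 𝒰' ≤ Fw L I.ξ w) {G G' : E2 → E2}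
    {G1 G1' : E2 → E2 →L[ℝ] E2} {G2 G2' : E2 → E2 →L[ℝ] E2 →L[ℝ] E2}
    (hG : IsLimMap I 𝒰 w G G1 G2) (hG' : IsLimMap I 𝒰' w G' G1' G2') {u v : E2}
    (hu : u ∈ ball (0 : E2) 2) (hv : v ∈ ball (0 : E2) 2) : ‖G' u - G' v‖ = ‖G u - G v‖ := by
  refine rigid isOpen_ball (convex_ball (0 : E2) 2).isPreconnected hG.dF hG.dF1 hG'.dF hG'.dF1
    (fun u hu => hG.inj hu) (fun u hu a b => ?_) hu hv
  have h := fun v => norm_eq hB h𝒰 h𝒰' hG hG' hu v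
  have e1 : ⟪G1 u a, G1 u b⟫ = (‖G1 u (a + b)‖ ^ 2 - ‖G1 u a‖ ^ 2 - ‖G1 u b‖ ^ 2) / 2 := by
    rw [map_add, norm_add_sq_real]; ring
  have e2 : ⟪G1' u a, G1' u b⟫ = (‖G1' u (a + b)‖ ^ 2 - ‖G1' u a‖ ^ 2 - ‖G1' u b‖ ^ 2) / 2 := by
    rw [map_add, norm_add_sq_real]; ring
  rw [e1, e2, h, h, h]

/-- the distance in the chart `e w' ` for pairs close to `w' = φ_{-S} w` -/
theorem δ_eq_F (S : ℝ) (p : Pt L I.ξ) {η η' : B}
    (h : η ∈ L.e (L.φ (-S) p.w) '' closedBall 0 3) (h' : η' ∈ L.e (L.φ (-S) p.w) '' closedBall 0 3) :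
    I.δ p η η' = Real.exp (A.h * S / 2) * ‖I.F (sh (-S) p).y (L.inv (L.φ (-S) p.w) η) -
      I.F (sh (-S) p).y (L.inv (L.φ (-S) p.w) η')‖ := by
  have h1 := I.δ_e (sh (-S) p) (L.inv_mem h) (L.inv_mem h')
  rw [sh_w, L.e_inv h, L.e_inv h', I.δ_sh] at h1
  rw [← h1, ← mul_assoc, ← Real.exp_add]
  have h2 : A.h * S / 2 + A.h * -S / 2 = 0 := by ring
  rw [h2, Real.exp_zero, one_mul]

/-- **the limit distance exists** -/
theorem exists_d (hB : I.Bdd C) {w : X} {η η' : B} (h : η ≠ L.em w) (h' : η' ≠ L.em w) :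
    ∃ c : ℝ, Tendsto (fun q : Pt L I.ξ × B × B => I.δ q.1 q.2.1 q.2.2)
      (Fw L I.ξ w ×ˢ (𝓝 η ×ˢ 𝓝 η')) (𝓝 c) := by
  obtain ⟨c₁, hc₁⟩ := exhaust L h
  obtain ⟨c₂, hc₂⟩ := exhaust L h'
  set S := max c₁ c₂ with hS
  have hη := hc₁ S (le_max_left _ _)
  have hη' := hc₂ S (le_max_right _ _)
  set w' := L.φ (-S) w with hw'
  have b12 : ball (0 : E2) 1 ⊆ ball 0 2 := ball_subset_ball (by norm_num)
  have b13 : ball (0 : E2) 1 ⊆ closedBall 0 3 :=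
    (ball_subset_ball (by norm_num)).trans ball_subset_closedBall
  set u := L.inv w' η with hu
  set u' := L.inv w' η' with hu'
  have hu2 : u ∈ ball (0 : E2) 2 := b12 (L.inv_mem_ball (by norm_num) hη)
  have hu2' : u' ∈ ball (0 : E2) 2 := b12 (L.inv_mem_ball (by norm_num) hη')
  have hue : L.e w' u = η := L.e_inv (image_mono b13 hη)
  have hue' : L.e w' u' = η' := L.e_inv (image_mono b13 hη')
  -- a reference limit map
  obtain ⟨G, G1, G2, hG⟩ := hB.exists_lim (w := w') (Ultrafilter.of (Fw L I.ξ w'))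
    (Ultrafilter.of_le _)
  refine ⟨Real.exp (A.h * S / 2) * ‖G u - G u'‖, ?_⟩
  rw [tendsto_iff_ultrafilter]
  intro 𝒱 h𝒱
  have t1 : Tendsto (fun q : Pt L I.ξ × B × B => q.1) (𝒱 : Filter _) (Fw L I.ξ w) :=
    tendsto_fst.mono_left h𝒱
  have t2 : Tendsto (fun q : Pt L I.ξ × B × B => q.2.1) (𝒱 : Filter _) (𝓝 η) :=
    (tendsto_fst.comp tendsto_snd).mono_left h𝒱
  have t3 : Tendsto (fun q : Pt L I.ξ × B × B => q.2.2) (𝒱 : Filter _) (𝓝 η') :=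
    (tendsto_snd.comp tendsto_snd).mono_left h𝒱
  have t4 : Tendsto (fun q : Pt L I.ξ × B × B => sh (-S) q.1) (𝒱 : Filter _) (Fw L I.ξ w') :=
    (sh_tendsto (-S) I.ξ w).comp t1
  have t5 : Tendsto (fun q : Pt L I.ξ × B × B => L.φ (-S) q.1.w) (𝒱 : Filter _) (𝓝 w') :=
    (tendsto_w L I.ξ w').comp t4
  obtain ⟨H, H1, H2, hH⟩ := hB.exists_lim (w := w')
    (𝒱.map fun q : Pt L I.ξ × B × B => sh (-S) q.1) t4
  have i1 := L.inv_tendsto t5 (b := fun q : Pt L I.ξ × B × B => q.2.1) (u₀ := u)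
    (by rw [hue]; exact t2) (two3 hu2)
  have i2 := L.inv_tendsto t5 (b := fun q : Pt L I.ξ × B × B => q.2.2) (u₀ := u')
    (by rw [hue']; exact t3) (two3 hu2')
  have hL : ∀ᶠ q : Pt L I.ξ × B × B in (𝒱 : Filter _), ∀ a ∈ ball (0 : E2) 2,
      ∀ b ∈ ball (0 : E2) 2, ‖I.F (sh (-S) q.1).y a - I.F (sh (-S) q.1).y b‖ ≤ C * ‖a - b‖ :=
    Eventually.of_forall fun q a ha b hb => hB.lipF (sh (-S) q.1).em_y ha hb
  have m1 := tendsto_moving isOpen_ball (G := fun q : Pt L I.ξ × B × B => I.F (sh (-S) q.1).y)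
    (F := H) hL hu2 (hH.tF u hu2) i1.2
  have m2 := tendsto_moving isOpen_ball (G := fun q : Pt L I.ξ × B × B => I.F (sh (-S) q.1).y)
    (F := H) hL hu2' (hH.tF u' hu2') i2.2
  have m3 := ((m1.sub m2).norm).const_mul (Real.exp (A.h * S / 2))
  have e1 : ‖H u - H u'‖ = ‖G u - G u'‖ :=
    dist_eq' hB (Ultrafilter.of_le _) t4 hG hH hu2 hu2'
  rw [e1] at m3
  refine m3.congr' ?_
  filter_upwards [i1.1, i2.1] with q hq1 hq2
  exact (δ_eq_F S q.1 (image_mono ball_subset_closedBall hq1)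
    (image_mono ball_subset_closedBall hq2)).symm

end CaseI

end Vale.Agent.P207.N3.H662
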