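import Vale.Agent.P207.N3.H158.NuC
import Vale.Agent.P207.N3.H662.BddPf

/-!
# P207, line N3, package P8: the mass of the visual measure in case (i) of Part A
-/

open Set MeasureTheory

noncomputable section

namespace Vale.Agent.P207.N3.H662

variable {Γ X B : Type} [Group Γ] [MetricSpace X] [ProperSpace X] [MulAction Γ X]
  [IsIsometricSMul Γ X] [TopologicalSpace B] [CompactSpace B] [T2Space B] [MulAction Γ B]
  [ContinuousConstSMul Γ B] [MeasurableSpace B] [BorelSpace B] {L : Leaf Γ X B} {A : Area L}

/-- **case (i)**: the visual measure at the base point has mass at most `4π/h` -/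
theorem nu_bound (I : CaseI L A) (C : Calib L A) : A.ν univ ≤ ENNReal.ofReal (4 / A.h * Real.pi) := by
  obtain ⟨F⟩ := I.exists_flat
  exact H158.nu_of_flat F C

end Vale.Agent.P207.N3.H662
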